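import Vale.Agent.P253.Defs

/-! Pointwise identities of a Kähler metric. -/

namespace Vale.Agent.P253.KahlerMetric

open scoped ContDiff ENNReal Topology
open Set Filter Complex

variable {n : ℕ} {M : Set (Fin n → ℂ)} (K : KahlerMetric M) {p : Fin n → ℂ}

theorem symm : ∀ p ∈ M, ∀ X Y, K.g p X Y = K.g p Y X := K.symm'

theorem pos : ∀ p ∈ M, ∀ X, X ≠ 0 → 0 < K.g p X X := K.pos'

theorem hermitian : ∀ p ∈ M, ∀ X Y, K.g p (I • X) (I • Y) = K.g p X Y := K.hermitian'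

theorem dg (hM : IsOpen M) (hp : p ∈ M) : HasFDerivAt K.g (fderiv ℝ K.g p) p :=
  ((ContDiffOn.contDiffAt K.smooth (hM.mem_nhds hp)).differentiableAt (by simp)).hasFDerivAt

theorem dG (hM : IsOpen M) (hp : p ∈ M) : HasFDerivAt K.Γ (fderiv ℝ K.Γ p) p :=
  ((ContDiffOn.contDiffAt K.smoothΓ (hM.mem_nhds hp)).differentiableAt (by simp)).hasFDerivAt

theorem line {E F : Type} [NormedAddCommGroup E] [NormedSpace ℝ E] [NormedAddCommGroup F]
    [NormedSpace ℝ F] {f : E → E →L[ℝ] E →L[ℝ] F} {f' : E →L[ℝ] E →L[ℝ] E →L[ℝ] F}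
    {c Y Z : ℝ → E} {c' Y' Z' : E} {t : ℝ} (hf : HasFDerivAt f f' (c t)) (hc : HasDerivAt c c' t)
    (hY : HasDerivAt Y Y' t) (hZ : HasDerivAt Z Z' t) :
    HasDerivAt (fun s => f (c s) (Y s) (Z s))
      (f' c' (Y t) (Z t) + f (c t) Y' (Z t) + f (c t) (Y t) Z') t := by
  have h0 : HasDerivAt (fun s => f (c s)) (f' c') t :=
    HasFDerivAt.comp_hasDerivAt (E := E →L[ℝ] E →L[ℝ] F) t hf hc
  have h1 : HasDerivAt (fun s => f (c s) (Y s)) (f' c' (Y t) + f (c t) Y') t := h0.clm_apply hY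
  exact h1.clm_apply hZ

theorem ev_eq {F : Type} [NormedAddCommGroup F] [NormedSpace ℝ F]
    {f : (Fin n → ℂ) → (Fin n → ℂ) →L[ℝ] (Fin n → ℂ) →L[ℝ] F}
    {f' : (Fin n → ℂ) →L[ℝ] (Fin n → ℂ) →L[ℝ] (Fin n → ℂ) →L[ℝ] F} (hM : IsOpen M) (hp : p ∈ M)
    (hf : HasFDerivAt f f' p) (L : F →L[ℝ] F) {Y Z Y' Z' : Fin n → ℂ}
    (h : ∀ q ∈ M, f q Y Z = L (f q Y' Z')) (X : Fin n → ℂ) : f' X Y Z = L (f' X Y' Z') := by
  have hc : HasDerivAt (fun s : ℝ => p + s • X) X 0 := by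
    simpa using ((hasDerivAt_id (0 : ℝ)).smul_const X).const_add p
  have hf' : HasFDerivAt f f' ((fun s : ℝ => p + s • X) 0) := by simpa using hf
  have h1 := line hf' hc (hasDerivAt_const 0 Y) (hasDerivAt_const 0 Z)
  have h2 := L.hasFDerivAt.comp_hasDerivAt 0
    (line hf' hc (hasDerivAt_const 0 Y') (hasDerivAt_const 0 Z'))
  have h3 : ∀ᶠ s in 𝓝 (0 : ℝ), p + s • X ∈ M :=
    hc.continuousAt.eventually (hM.mem_nhds (by simpa using hp))
  have h4 := h1.unique (h2.congr_of_eventuallyEq (h3.mono fun s hs => h _ hs))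
  simpa using h4

theorem dd_eq {E F : Type} [NormedAddCommGroup E] [NormedSpace ℝ E] [NormedAddCommGroup F]
    [NormedSpace ℝ F] {f : E → E →L[ℝ] E →L[ℝ] F} {f' : E →L[ℝ] E →L[ℝ] E →L[ℝ] F} {p : E}
    (hf : HasFDerivAt f f' p) (X Y Z : E) : dd f p X Y Z = f' X Y Z := by
  have h1 := (hf.clm_apply (hasFDerivAt_const Y p)).clm_apply (hasFDerivAt_const Z p)
  unfold dd ev
  rw [h1.fderiv]
  simp

theorem closed (hM : IsOpen M) : ∀ p ∈ M, ∀ X Y Z, fderiv ℝ K.g p X (I • Y) Z +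
    fderiv ℝ K.g p Y (I • Z) X + fderiv ℝ K.g p Z (I • X) Y = 0 := fun p hp X Y Z => by
  simpa only [dd_eq (K.dg hM hp)] using K.closed' p hp X Y Z

theorem koszul (hM : IsOpen M) : ∀ p ∈ M, ∀ X Y Z, K.g p (K.Γ p X Y) Z =
    (fderiv ℝ K.g p X Y Z + fderiv ℝ K.g p Y X Z - fderiv ℝ K.g p Z X Y) / 2 :=
  fun p hp X Y Z => by simpa only [dd_eq (K.dg hM hp), ev] using K.koszul' p hp X Y Z

theorem skew (hp : p ∈ M) (X Y : Fin n → ℂ) : K.g p (I • X) Y = - K.g p X (I • Y) := by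
  rw [← K.hermitian p hp (I • X) Y, smul_smul, I_mul_I, neg_smul, one_smul, map_neg]
  rfl

theorem D_symm (hM : IsOpen M) (hp : p ∈ M) (X Y Z : Fin n → ℂ) :
    fderiv ℝ K.g p X Y Z = fderiv ℝ K.g p X Z Y :=
  ev_eq hM hp (K.dg hM hp) (ContinuousLinearMap.id ℝ ℝ) (fun q hq => K.symm q hq Y Z) X

theorem D_skew (hM : IsOpen M) (hp : p ∈ M) (X Y Z : Fin n → ℂ) :
    fderiv ℝ K.g p X (I • Y) Z = - fderiv ℝ K.g p X Y (I • Z) :=
  ev_eq hM hp (K.dg hM hp) (-ContinuousLinearMap.id ℝ ℝ) (fun _ hq => K.skew hq Y Z) X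

theorem ext_g (hp : p ∈ M) {X Y : Fin n → ℂ} (h : ∀ Z, K.g p X Z = K.g p Y Z) : X = Y := by
  by_contra hne
  have h1 := K.pos p hp (X - Y) (sub_ne_zero.2 hne)
  rw [map_sub (K.g p), _root_.sub_apply, h, sub_self] at h1
  exact lt_irrefl _ h1

theorem nonneg (hp : p ∈ M) (X : Fin n → ℂ) : 0 ≤ K.g p X X := by
  by_cases h : X = 0
  · simp [h]
  · exact (K.pos p hp X h).le

theorem compat (hM : IsOpen M) (hp : p ∈ M) (X Y Z : Fin n → ℂ) :
    fderiv ℝ K.g p X Y Z = K.g p (K.Γ p X Y) Z + K.g p Y (K.Γ p X Z) := by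
  rw [K.symm p hp Y, K.koszul hM p hp, K.koszul hM p hp, K.D_symm hM hp X Z Y]
  ring

theorem G_symm (hM : IsOpen M) (hp : p ∈ M) (X Y : Fin n → ℂ) : K.Γ p X Y = K.Γ p Y X := by
  refine K.ext_g hp fun Z => ?_
  rw [K.koszul hM p hp, K.koszul hM p hp, K.D_symm hM hp Z X Y]
  ring

theorem G_I (hM : IsOpen M) (hp : p ∈ M) (X Y : Fin n → ℂ) :
    K.Γ p X (I • Y) = I • K.Γ p X Y := by
  refine K.ext_g hp fun Z => ?_
  have h1 := K.closed hM p hp X Y Z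
  have h2 := K.closed hM p hp X (I • Y) (I • Z)
  have e : ∀ W : Fin n → ℂ, I • I • W = -W := fun W => by
    rw [smul_smul, I_mul_I, neg_smul, one_smul]
  rw [K.D_skew hM hp (I • Z) X, e, e] at h2
  simp only [map_neg, _root_.neg_apply, neg_neg] at h2
  rw [K.skew hp, K.koszul hM p hp, K.koszul hM p hp]
  have a1 := K.D_skew hM hp X Y Z
  have a2 := K.D_symm hM hp Y (I • Z) X
  have a3 := K.D_skew hM hp Z X Y
  have a4 := K.D_symm hM hp (I • Y) Z X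
  linarith

theorem G_I' (hM : IsOpen M) (hp : p ∈ M) (X Y : Fin n → ℂ) :
    K.Γ p (I • X) Y = I • K.Γ p X Y := by
  rw [K.G_symm hM hp, K.G_I hM hp, K.G_symm hM hp]

/-- Multiplication by `i`. -/
noncomputable def J (n : ℕ) : (Fin n → ℂ) →L[ℝ] (Fin n → ℂ) :=
  (I • ContinuousLinearMap.id ℂ (Fin n → ℂ)).restrictScalars ℝ

theorem J_apply (X : Fin n → ℂ) : J n X = I • X := rfl

theorem DG_symm (hM : IsOpen M) (hp : p ∈ M) (W X Y : Fin n → ℂ) :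
    fderiv ℝ K.Γ p W X Y = fderiv ℝ K.Γ p W Y X :=
  ev_eq hM hp (K.dG hM hp) (ContinuousLinearMap.id ℝ _) (fun _ hq => K.G_symm hM hq X Y) W

theorem DG_I (hM : IsOpen M) (hp : p ∈ M) (W X Y : Fin n → ℂ) :
    fderiv ℝ K.Γ p W X (I • Y) = I • fderiv ℝ K.Γ p W X Y :=
  ev_eq hM hp (K.dG hM hp) (J n) (fun _ hq => K.G_I hM hq X Y) W

theorem bisec_eq (hM : IsOpen M) (hp : p ∈ M) (u v : Fin n → ℂ) :
    K.rm p u v + K.rm p u (I • v) =
      - K.g p (fderiv ℝ K.Γ p v u v + I • fderiv ℝ K.Γ p (I • v) u v) u := by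
  have e : ∀ W : Fin n → ℂ, I • I • W = -W := fun W => by
    rw [smul_smul, I_mul_I, neg_smul, one_smul]
  have h1 : fderiv ℝ K.Γ p u (I • v) (I • v) = - fderiv ℝ K.Γ p u v v := by
    rw [K.DG_I hM hp, K.DG_symm hM hp u (I • v), K.DG_I hM hp, e]
  have h2 : K.Γ p (I • v) (I • v) = - K.Γ p v v := by rw [K.G_I hM hp, K.G_I' hM hp, e]
  have h3 : K.Γ p (I • v) (K.Γ p u (I • v)) = - K.Γ p v (K.Γ p u v) := by
    rw [K.G_I hM hp u v, K.G_I hM hp, K.G_I' hM hp, e]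
  unfold rm riem ev
  simp only [dd_eq (K.dG hM hp)]
  rw [h1, h2, h3, K.DG_I hM hp (I • v) u v]
  simp only [map_add, map_sub, map_neg, _root_.add_apply,
    _root_.sub_apply, _root_.neg_apply]
  ring

theorem bisec_le (hM : IsOpen M) (hb : K.NonnegBisec) (hp : p ∈ M) (u v : Fin n → ℂ) :
    K.g p (fderiv ℝ K.Γ p v u v + I • fderiv ℝ K.Γ p (I • v) u v) u ≤ 0 := by
  by_cases hu : u = 0
  · simp [hu]
  by_cases hv : v = 0
  · simp [hv]
  have hu' := K.pos p hp u hu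
  have hv' := K.pos p hp v hv
  have key : ∀ w : Fin n → ℂ, 0 < K.g p w w →
      K.g p ((√(K.g p w w))⁻¹ • w) ((√(K.g p w w))⁻¹ • w) = 1 := by
    intro w hw
    have hs : √(K.g p w w) ≠ 0 := (Real.sqrt_pos.2 hw).ne'
    simp only [map_smul, _root_.smul_apply, smul_eq_mul]
    have := Real.mul_self_sqrt hw.le
    field_simp
    linarith
  have h := hb p hp _ _ (key u hu') (key v hv')
  rw [K.bisec_eq hM hp] at h
  set a := (√(K.g p u u))⁻¹ with ha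
  set b := (√(K.g p v v))⁻¹ with hb'
  have ha0 : 0 < a := inv_pos.2 (Real.sqrt_pos.2 hu')
  have hb0 : 0 < b := inv_pos.2 (Real.sqrt_pos.2 hv')
  have e : K.g p (fderiv ℝ K.Γ p (b • v) (a • u) (b • v) +
      I • fderiv ℝ K.Γ p (I • b • v) (a • u) (b • v)) (a • u) = (a * a * b * b) *
      K.g p (fderiv ℝ K.Γ p v u v + I • fderiv ℝ K.Γ p (I • v) u v) u := by
    rw [smul_comm I b v]
    simp only [map_smul, _root_.smul_apply, smul_eq_mul, map_add,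
      _root_.add_apply, smul_comm I (_ : ℝ)]
    ring
  rw [e] at h
  have h5 : 0 < a * a * b * b := by positivity
  by_contra hn
  have := mul_pos h5 (not_le.1 hn)
  linarith

end Vale.Agent.P253.KahlerMetric
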