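import Vale.Agent.P253.Cont

/-! Averaging over the circle. -/

namespace Vale.Agent.P253.KahlerMetric

open scoped ContDiff ENNReal Topology
open Set Filter Complex Metric Vale.Agent.P278 MeasureTheory

variable {n : ℕ} {V : Set (Fin n → ℂ)} {H : ℝ → (Fin n → ℂ) → Fin n → ℂ} {x : Fin n → ℂ}

theorem fder_cont (hV : IsOpen V) (hc : ContinuousOn (Function.uncurry H) (univ ×ˢ V))
    (hd : ∀ θ, DifferentiableOn ℂ (H θ) V) (hx : x ∈ V) :
    Continuous fun θ => fderiv ℂ (H θ) x := by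
  obtain ⟨R, hR, hs⟩ := nhds_basis_closedBall.mem_iff.1 (hV.mem_nhds hx)
  refine continuous_iff_continuousAt.2 fun θ₀ => Metric.tendsto_nhds.2 fun ε hε => ?_
  have h1 := (isCompact_closedBall x R).eventually_forall_of_forall_eventually (x₀ := θ₀)
    (P := fun θ y => ‖H θ y - H θ₀ y‖ < ε * R / 2) fun y hy => by
      have a1 : ContinuousAt (Function.uncurry H) (θ₀, y) :=
        hc.continuousAt ((isOpen_univ.prod hV).mem_nhds ⟨mem_univ _, hs hy⟩)
      have a2 : ContinuousAt (fun t : ℝ × (Fin n → ℂ) => H θ₀ t.2) (θ₀, y) :=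
        ContinuousAt.comp (f := Prod.snd) ((hd θ₀).continuousOn.continuousAt
          (hV.mem_nhds (hs hy))) continuousAt_snd
      have a3 := (a1.sub a2).norm
      exact a3.eventually (gt_mem_nhds (by simp only [Function.uncurry_apply_pair, Pi.sub_apply, sub_self, norm_zero]; positivity))
  filter_upwards [h1] with θ hθ
  have d : ∀ θ, ∀ y ∈ closedBall x R, DifferentiableAt ℂ (H θ) y := fun θ y hy =>
    (hd θ).differentiableAt (hV.mem_nhds (hs hy))
  have h2 := osg1_bound (f := fun y => H θ y - H θ₀ y) hR (fun y hy => (d θ y hy).sub (d θ₀ y hy))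
    fun y hy => (hθ y hy).le
  rw [fderiv_fun_sub (d θ x (mem_closedBall_self hR.le)) (d θ₀ x (mem_closedBall_self hR.le))] at h2
  rw [dist_eq_norm]
  refine h2.trans_lt ?_
  rw [div_lt_iff₀ hR]
  linarith [mul_pos hε hR]

theorem int_hol (hV : IsOpen V) (hc : ContinuousOn (Function.uncurry H) (univ ×ˢ V))
    (hd : ∀ θ, DifferentiableOn ℂ (H θ) V) (hx : x ∈ V) (a b : ℝ) :
    HasFDerivAt (fun y => ∫ θ in a..b, H θ y) (∫ θ in a..b, fderiv ℂ (H θ) x) x := by
  obtain ⟨R, hR, hs⟩ := nhds_basis_closedBall.mem_iff.1 (hV.mem_nhds hx)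
  have c1 : ∀ y ∈ V, Continuous fun θ => H θ y := fun y hy =>
    hc.comp_continuous (f := fun θ : ℝ => (θ, y)) (by fun_prop) fun θ => ⟨mem_univ _, hy⟩
  obtain ⟨C, hC⟩ := (isCompact_uIcc (a := a) (b := b)).prod (isCompact_closedBall x R)
    |>.exists_bound_of_continuousOn (hc.mono (prod_mono (subset_univ _) hs))
  have hsub : ∀ y ∈ ball x (R / 2), closedBall y (R / 2) ⊆ closedBall x R := fun y hy =>
    closedBall_subset_closedBall' (by linarith [mem_ball.1 hy])
  refine intervalIntegral.hasFDerivAt_integral_of_dominated_of_fderiv_le (𝕜 := ℂ)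
    (F := fun y θ => H θ y) (F' := fun y θ => fderiv ℂ (H θ) y) (s := ball x (R / 2))
    (bound := fun _ => C / (R / 2)) (ball_mem_nhds x (half_pos hR))
    ((hV.eventually_mem hx).mono fun y hy => (c1 y hy).aestronglyMeasurable)
    ((c1 x hx).intervalIntegrable a b) (fder_cont hV hc hd hx).aestronglyMeasurable
    (Eventually.of_forall fun θ hθ y hy => ?_) intervalIntegrable_const
    (Eventually.of_forall fun θ _ y hy => ?_)
  · exact osg1_bound (half_pos hR)
      (fun y' hy' => (hd θ).differentiableAt (hV.mem_nhds (hs (hsub y hy hy'))))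
      fun y' hy' => hC (θ, y') ⟨uIoc_subset_uIcc hθ, hsub y hy hy'⟩
  · exact ((hd θ).differentiableAt (hV.mem_nhds
      (hs (hsub y hy (mem_closedBall_self (half_pos hR).le))))).hasFDerivAt

theorem rot_add (w : Fin n → ℝ) (s t : ℝ) (z : Fin n → ℂ) :
    rot w s (rot w t z) = rot w (s + t) z := by
  funext j
  simp only [rot]
  rw [← mul_assoc, ← Complex.exp_add]
  congr 2
  push_cast
  ring

theorem rot_per (w : Fin n → ℕ) (s : ℝ) (z : Fin n → ℂ) :
    rot (fun j => (w j : ℝ)) (-(s + 2 * Real.pi)) z = rot (fun j => (w j : ℝ)) (-s) z := by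
  funext j
  simp only [rot]
  congr 1
  rw [Complex.exp_eq_exp_iff_exists_int]
  refine ⟨-(w j : ℤ), ?_⟩
  push_cast
  ring

/-- The rotation as a complex linear map. -/
noncomputable def rotL (w : Fin n → ℝ) (θ : ℝ) : (Fin n → ℂ) →L[ℂ] (Fin n → ℂ) :=
  ContinuousLinearMap.pi fun j => exp (I * (θ * w j : ℝ)) •
    ContinuousLinearMap.proj (R := ℂ) (φ := fun _ : Fin n => ℂ) j

theorem rotL_apply (w : Fin n → ℝ) (θ : ℝ) (z : Fin n → ℂ) : rotL w θ z = rot w θ z := rfl

theorem avg_eqv (w : Fin n → ℕ) {f : ℝ → Fin n → ℂ} (hf : Continuous f)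
    (hp : ∀ θ, f (θ + 2 * Real.pi) = f θ) (t : ℝ) :
    ∫ θ in (0 : ℝ)..2 * Real.pi, rot (fun j => (w j : ℝ)) (-θ) (f (θ + t)) =
      rot (fun j => (w j : ℝ)) t
        (∫ θ in (0 : ℝ)..2 * Real.pi, rot (fun j => (w j : ℝ)) (-θ) (f θ)) := by
  set k : ℝ → Fin n → ℂ := fun θ => rot (fun j => (w j : ℝ)) (-θ) (f θ) with hk
  have kc : Continuous k := (rot_cont _).comp (continuous_neg.prodMk hf)
  have kp : Function.Periodic k (2 * Real.pi) := fun θ => by
    simp only [hk]
    rw [rot_per, hp]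
  have e : ∀ θ, rot (fun j => (w j : ℝ)) (-θ) (f (θ + t)) =
      rotL (fun j => (w j : ℝ)) t (k (θ + t)) := fun θ => by
    rw [rotL_apply, hk, rot_add, show t + -(θ + t) = -θ by ring]
  simp only [e]
  rw [ContinuousLinearMap.intervalIntegral_comp_comm (f := fun θ => k (θ + t)) _
    ((kc.comp (continuous_add_const t)).intervalIntegrable _ _), rotL_apply]
  congr 1
  have h1 := kp.intervalIntegral_add_eq t 0
  rw [zero_add] at h1
  rw [← h1, intervalIntegral.integral_comp_add_right k t, zero_add, add_comm]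

variable {M : Set (Fin n → ℂ)} {Φ : ℝ → (Fin n → ℂ) → Fin n → ℂ} {p : Fin n → ℂ}

theorem exists_F (hM : IsOpen M) (w : Fin n → ℕ) (hol : ∀ θ, DifferentiableOn ℂ (Φ θ) M)
    (cont : ContinuousOn (Function.uncurry Φ) (univ ×ˢ M))
    (add : ∀ s t, ∀ z ∈ M, Φ (s + t) z = Φ s (Φ t z))
    (per : ∀ s, ∀ z ∈ M, Φ (s + 2 * Real.pi) z = Φ s z) (hp : p ∈ M) (fix : ∀ θ, Φ θ p = p)
    (der : ∀ θ Y, fderiv ℝ (Φ θ) p Y = rot (fun j => (w j : ℝ)) θ Y) :
    ∃ F : (Fin n → ℂ) → Fin n → ℂ, DifferentiableOn ℂ F M ∧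
      (∀ θ, ∀ z ∈ M, F (Φ θ z) = rot (fun j => (w j : ℝ)) θ (F z)) ∧ F p = 0 ∧
        Function.Injective (fderiv ℝ F p) := by
  set H : ℝ → (Fin n → ℂ) → Fin n → ℂ :=
    fun θ z => rot (fun j => (w j : ℝ)) (-θ) (Φ θ z - p) with hH
  have hc0 : ContinuousOn (fun t : ℝ × (Fin n → ℂ) => (-t.1, Function.uncurry Φ t - p))
      (univ ×ˢ M) := continuous_fst.neg.continuousOn.prodMk (cont.sub continuousOn_const)
  have hc : ContinuousOn (Function.uncurry H) (univ ×ˢ M) :=
    ((rot_cont fun j => (w j : ℝ)).comp_continuousOn hc0).congr fun t _ => rfl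
  have hd : ∀ θ, DifferentiableOn ℂ (H θ) M := fun θ =>
    (rotL (fun j => (w j : ℝ)) (-θ)).differentiable.comp_differentiableOn ((hol θ).sub_const p)
  refine ⟨fun z => ∫ θ in (0 : ℝ)..2 * Real.pi, H θ z,
    fun z hz => (int_hol hM hc hd hz _ _).differentiableAt.differentiableWithinAt,
    fun t z hz => ?_, ?_, ?_⟩
  · simp only [hH, ← add _ t z hz]
    exact avg_eqv w (f := fun θ => Φ θ z - p) ((cont.comp_continuous
      (f := fun θ : ℝ => (θ, z)) (by fun_prop) fun θ => ⟨mem_univ _, hz⟩).sub continuous_const)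
      (fun θ => by rw [per θ z hz]) t
  · simp only [hH, fix, sub_self, ← rotL_apply, map_zero, intervalIntegral.integral_zero]
  · have e : ∀ θ, fderiv ℂ (H θ) p = ContinuousLinearMap.id ℂ _ := fun θ => by
      have d1 := (hol θ).differentiableAt (hM.mem_nhds hp)
      have d2 : HasFDerivAt (H θ) _ p :=
        (rotL (fun j => (w j : ℝ)) (-θ)).hasFDerivAt.comp p (d1.hasFDerivAt.sub_const p)
      rw [d2.fderiv]
      refine ContinuousLinearMap.ext fun Y => ?_
      have d3 := der θ Y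
      rw [d1.fderiv_restrictScalars ℝ] at d3
      have d4 : fderiv ℂ (Φ θ) p Y = rot (fun j => (w j : ℝ)) θ Y := d3
      rw [ContinuousLinearMap.comp_apply, d4, rotL_apply, rot_add, neg_add_cancel, rot_zero]
      rfl
    have h1 := int_hol hM hc hd hp 0 (2 * Real.pi)
    simp only [e, intervalIntegral.integral_const, sub_zero] at h1
    rw [(h1.restrictScalars ℝ).fderiv]
    intro X Y hXY
    exact smul_right_injective (Fin n → ℂ) (r := 2 * Real.pi) Real.two_pi_pos.ne' hXY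

end Vale.Agent.P253.KahlerMetric
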