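import Vale.Agent.P253.Loc

/-! Continuation of the local inverse of `F` along the flow. -/

namespace Vale.Agent.P253.KahlerMetric

open scoped ContDiff ENNReal Topology
open Set Filter Complex Metric Vale.Agent.P278

variable {n : ℕ} {M U : Set (Fin n → ℂ)} {F G : (Fin n → ℂ) → Fin n → ℂ} {z p : Fin n → ℂ}
  {w : Fin n → ℝ} {Φ : ℝ → (Fin n → ℂ) → Fin n → ℂ} {K : KahlerMetric M}

theorem limit (A : Act K Φ F w) (hb : K.NonnegBisec) (hK : K.Complete) (hw : ∀ j, 0 < w j)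
    (h : Sec M U F G) {T R : ℝ} (hR : 0 < R) (hm : ∀ s ∈ Ico 0 R, fl w (s - T) z ∈ U) :
    ∃ (u : ℕ → ℝ) (q : Fin n → ℂ), (∀ k, u k ∈ Ico 0 R) ∧ Tendsto u atTop (𝓝 R) ∧ q ∈ M ∧
      Tendsto (fun k => G (fl w (u k - T) z)) atTop (𝓝 q) ∧ F q = fl w (R - T) z ∧
        Function.Injective (fderiv ℝ F q) := by
  obtain ⟨L, hL0, hL⟩ := growth2 (A.kil h) h.oU (K.pull_bisec h hb) (fl_der T z) hm hR
  have hL1 : ∀ s ∈ Ico 0 R, ∀ v, K.pg G (fl w (s - T) z) v v ≤ L * ‖v‖ ^ 2 := by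
    intro s hs v
    have h1 := hL _ (fl_der s v) s hs
    simp only [sub_self, fl_zero, zero_sub] at h1
    exact h1.trans (mul_le_mul_of_nonneg_left (pow_le_pow_left₀ (norm_nonneg _)
      (fl_norm hw (neg_nonpos.2 hs.1) v) 2) hL0)
  have hL2 := hL (fun s => (dia fun j => (w j : ℂ)) (fl w (s - T) z)) fun s =>
    (dia fun j => (w j : ℂ)).hasFDerivAt.comp_hasDerivAt s (fl_der T z s)
  obtain ⟨u, q, hu, hl, hq, hc⟩ := end_lim (c := fun s => G (fl w (s - T) z)) hK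
    (fun s hs => (((hol_sm h.oU h.hG).contDiffAt (h.oU.mem_nhds (hm s hs))).of_le
      (by simp)).comp s (fl_cd T z).contDiffAt) hR (fun s hs => h.maps (hm s hs)) fun s hs => by
      have h1 : HasDerivAt (fun s => G (fl w (s - T) z)) _ s :=
        ((h.hG.differentiableAt (h.oU.mem_nhds (hm s hs))).restrictScalars
          ℝ).hasFDerivAt.comp_hasDerivAt s (fl_der T z s)
      rw [h1.deriv]
      exact hL2 s hs
  refine ⟨u, q, hu, hl, hq, hc, ?_, (injective_iff_map_eq_zero _).2 fun v hv => ?_⟩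
  · have h1 := (h.hF.continuousOn.continuousAt (h.oM.mem_nhds hq)).tendsto.comp hc
    have h2 := ((fl_cd (w := w) T z).continuous.tendsto R).comp hl
    exact tendsto_nhds_unique h1 (h2.congr fun k => (h.sec _ (hm _ (hu k))).symm)
  · have c1 : ContinuousAt (fun x => K.g x v v) q :=
      (((K.dg h.oM hq).continuousAt).clm_apply continuousAt_const).clm_apply continuousAt_const
    have c2 : ContinuousAt (fun x => L * ‖fderiv ℝ F x v‖ ^ 2) q :=
      continuousAt_const.mul ((((hol_sm1 h.oM h.hF).continuousOn.continuousAt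
        (h.oM.mem_nhds hq)).clm_apply continuousAt_const).norm.pow 2)
    have h3 := le_of_tendsto_of_tendsto' (c1.tendsto.comp hc) (c2.tendsto.comp hc) fun k => by
      have h4 := hL1 _ (hu k) (fderiv ℝ F (G (fl w (u k - T) z)) v)
      rw [pg_apply, h.GF (hm _ (hu k))] at h4
      exact h4
    rw [hv, norm_zero] at h3
    by_contra hne
    have := K.pos q hq v hne
    simp only [ne_eq, OfNat.ofNat_ne_zero, not_false_eq_true, zero_pow, mul_zero] at h3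
    linarith

/-- Sections over open sets that are star shaped for the flow. -/
structure Good (M : Set (Fin n → ℂ)) (F : (Fin n → ℂ) → Fin n → ℂ) (w : Fin n → ℝ)
    (ψ : (Fin n → ℂ) → Fin n → ℂ) (U : Set (Fin n → ℂ)) (G : (Fin n → ℂ) → Fin n → ℂ) : Prop where
  sec : Sec M U F G
  zero : 0 ∈ U
  star : ∀ z ∈ U, ∀ s, 0 ≤ s → fl w (-s) z ∈ U
  germ : G =ᶠ[𝓝 0] ψ

variable {ψ : (Fin n → ℂ) → Fin n → ℂ}

theorem Good.agree (hw : ∀ j, 0 < w j) {U' : Set (Fin n → ℂ)} {G' : (Fin n → ℂ) → Fin n → ℂ}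
    (h : Good M F w ψ U G) (h' : Good M F w ψ U' G') (hz : z ∈ U) (hz' : z ∈ U') :
    G z = G' z := by
  obtain ⟨t, h1, h2⟩ := (((fl_lim hw z).eventually
    (h.germ.trans h'.germ.symm).eventuallyEq_nhds).and (eventually_ge_atTop 0)).exists
  exact KahlerMetric.agree h.sec.oU h'.sec.oU h.sec.hG h'.sec.hG h2
    (fun s hs => ⟨h.star z hz s hs.1, h'.star z hz' s hs.1⟩) h1

theorem exists_max (hw : ∀ j, 0 < w j) (h : Good M F w ψ U G) : ∃ Z H, Good M F w ψ Z H ∧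
    ∀ U' G', Good M F w ψ U' G' → U' ⊆ Z := by
  classical
  let Z : Set (Fin n → ℂ) := {z | ∃ t : Set (Fin n → ℂ) × ((Fin n → ℂ) → Fin n → ℂ),
    Good M F w ψ t.1 t.2 ∧ z ∈ t.1}
  let H : (Fin n → ℂ) → Fin n → ℂ := fun z => if hz : z ∈ Z then hz.choose.2 z else 0
  have e : ∀ U' G', Good M F w ψ U' G' → ∀ z ∈ U', H z = G' z := fun U' G' hg z hz => by
    have h1 : z ∈ Z := ⟨(U', G'), hg, hz⟩
    simp only [H, dif_pos h1]
    exact h1.choose_spec.1.agree hw hg h1.choose_spec.2 hz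
  have e' : ∀ U' G', Good M F w ψ U' G' → ∀ z ∈ U', H =ᶠ[𝓝 z] G' := fun U' G' hg z hz =>
    (hg.sec.oU.eventually_mem hz).mono (e U' G' hg)
  refine ⟨Z, H, ⟨⟨h.sec.oM, ?_, h.sec.hF, ?_, ?_, ?_⟩, ⟨(U, G), h, h.zero⟩, ?_, ?_⟩,
    fun U' G' hg z hz => ⟨(U', G'), hg, hz⟩⟩
  · exact isOpen_iff_forall_mem_open.2 fun z ⟨t, ht, hz⟩ =>
      ⟨t.1, fun y hy => ⟨t, ht, hy⟩, ht.sec.oU, hz⟩
  · rintro z ⟨t, ht, hz⟩
    exact ((ht.sec.hG.differentiableAt (ht.sec.oU.mem_nhds hz)).congr_of_eventuallyEq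
      (e' _ _ ht z hz)).differentiableWithinAt
  · rintro z ⟨t, ht, hz⟩
    rw [e _ _ ht z hz]
    exact ht.sec.maps hz
  · rintro z ⟨t, ht, hz⟩
    rw [e _ _ ht z hz]
    exact ht.sec.sec z hz
  · rintro z ⟨t, ht, hz⟩ s hs
    exact ⟨t, ht, ht.star z hz s hs⟩
  · exact (e' U G h 0 h.zero).trans h.germ

theorem extend (hw : ∀ j, 0 < w j) (h : Good M F w ψ U G) {χ : (Fin n → ℂ) → Fin n → ℂ}
    {c : Fin n → ℂ} {r t : ℝ} (hr : 0 < r) (hχ : DifferentiableOn ℂ χ (ball c r))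
    (hm : MapsTo χ (ball c r) M) (hs : ∀ y ∈ ball c r, F (χ y) = y) (ht : 0 ≤ t)
    (h1 : fl w (-t) c ∈ U) (h2 : fl w (-t) c ∈ ball c r) (h3 : G =ᶠ[𝓝 (fl w (-t) c)] χ) :
    ∃ U' G', Good M F w ψ U' G' ∧ c ∈ U' := by
  classical
  obtain ⟨O, hO, oO, hcO⟩ := _root_.eventually_nhds_iff.1
    ((h3.and (h.sec.oU.eventually_mem h1)).and (isOpen_ball.eventually_mem h2))
  let N : Set (Fin n → ℂ) := ball c r ∩ ⋃ s ∈ Ici (0 : ℝ), fl w (-s) ⁻¹' O
  have oN : IsOpen N := isOpen_ball.inter (isOpen_biUnion fun s _ =>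
    oO.preimage ((fl_cont w).comp (continuous_const.prodMk continuous_id)))
  have ag : ∀ y ∈ N, y ∈ U → G y = χ y := by
    rintro y ⟨hy, hy'⟩ hU
    obtain ⟨s, hs0, hsO⟩ := mem_iUnion₂.1 hy'
    exact KahlerMetric.agree h.sec.oU isOpen_ball h.sec.hG hχ hs0
      (fun a ha => ⟨h.star y hU a ha.1, fl_ball hw hr hy (hO _ hsO).2 ha.1 ha.2⟩)
      ((oO.eventually_mem hsO).mono fun x hx => (hO x hx).1.1)
  let H : (Fin n → ℂ) → Fin n → ℂ := fun y => if y ∈ U then G y else χ y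
  have eU : ∀ y ∈ U, H y = G y := fun y hy => if_pos hy
  have eN : ∀ y ∈ N, H y = χ y := fun y hy => by
    by_cases hU : y ∈ U
    · rw [eU y hU, ag y hy hU]
    · exact if_neg hU
  refine ⟨U ∪ N, H, ⟨⟨h.sec.oM, h.sec.oU.union oN, h.sec.hF, ?_, ?_, ?_⟩, Or.inl h.zero, ?_, ?_⟩,
    Or.inr ⟨mem_ball_self hr, mem_iUnion₂.2 ⟨t, ht, hcO⟩⟩⟩
  · rintro y (hy | hy)
    · exact ((h.sec.hG.differentiableAt (h.sec.oU.mem_nhds hy)).congr_of_eventuallyEq
        ((h.sec.oU.eventually_mem hy).mono eU)).differentiableWithinAt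
    · exact ((hχ.differentiableAt (isOpen_ball.mem_nhds hy.1)).congr_of_eventuallyEq
        ((oN.eventually_mem hy).mono eN)).differentiableWithinAt
  · rintro y (hy | hy)
    · rw [eU y hy]
      exact h.sec.maps hy
    · rw [eN y hy]
      exact hm hy.1
  · rintro y (hy | hy)
    · rw [eU y hy]
      exact h.sec.sec y hy
    · rw [eN y hy]
      exact hs y hy.1
  · rintro y (hy | ⟨hy, hy'⟩) a ha
    · exact Or.inl (h.star y hy a ha)
    · obtain ⟨s, hs0, hsO⟩ := mem_iUnion₂.1 hy'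
      rcases le_total a s with has | has
      · refine Or.inr ⟨fl_ball hw hr hy (hO _ hsO).2 ha has,
          mem_iUnion₂.2 ⟨s - a, sub_nonneg.2 has, ?_⟩⟩
        rw [mem_preimage, fl_add, show -(s - a) + -a = -s by ring]
        exact hsO
      · have h4 := h.star _ (hO _ hsO).1.2 (a - s) (sub_nonneg.2 has)
        rw [fl_add, show -(a - s) + -s = -a by ring] at h4
        exact Or.inl h4
  · exact EventuallyEq.trans ((h.sec.oU.eventually_mem h.zero).mono eU) h.germ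

theorem global (A : Act K Φ F w) (hb : K.NonnegBisec) (hK : K.Complete) (hw : ∀ j, 0 < w j)
    (h : Good M F w ψ U G) : ∃ H, Good M F w ψ univ H := by
  obtain ⟨Z, H, hZ, hmax⟩ := exists_max hw h
  suffices e : Z = univ from ⟨H, e ▸ hZ⟩
  refine eq_univ_of_forall fun z => ?_
  by_contra hn
  obtain ⟨T, hT1, hT0⟩ := (((fl_lim hw z).eventually (hZ.sec.oU.mem_nhds hZ.zero)).and
    (eventually_ge_atTop 0)).exists
  have hcont := (fl_cd (w := w) T z).continuous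
  have hcl : IsClosed (Ici (0 : ℝ) ∩ (fun s => fl w (s - T) z) ⁻¹' Zᶜ) :=
    isClosed_Ici.inter (hZ.sec.oU.isClosed_compl.preimage hcont)
  have hb' : BddBelow (Ici (0 : ℝ) ∩ (fun s => fl w (s - T) z) ⁻¹' Zᶜ) := ⟨0, fun x hx => hx.1⟩
  have hR := hcl.csInf_mem ⟨T, hT0, by simp only [mem_preimage, sub_self, fl_zero]; exact hn⟩ hb'
  set R := sInf (Ici (0 : ℝ) ∩ (fun s => fl w (s - T) z) ⁻¹' Zᶜ) with hRd
  have hpos : 0 < R := lt_of_le_of_ne hR.1 fun e => hR.2 (by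
    rw [← e]
    simp only [zero_sub]
    exact hT1)
  have hm : ∀ s ∈ Ico 0 R, fl w (s - T) z ∈ Z := fun s hs => by
    by_contra hs'
    exact absurd (csInf_le hb' ⟨hs.1, hs'⟩) (not_le.2 hs.2)
  obtain ⟨u, q, hu, hl, hq, hc, hFq, hi⟩ := limit A hb hK hw hZ.sec hpos hm
  obtain ⟨χ, r, hr, c1, c2, c3, c4⟩ := loc_inv A.oM A.hF hq hi
  rw [hFq] at c1 c2 c3
  obtain ⟨k, k1, k2⟩ := ((hc.eventually c4.eventually_nhds).and
    (((hcont.tendsto R).comp hl).eventually (isOpen_ball.mem_nhds (mem_ball_self hr)))).exists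
  have e : fl w (-(R - u k)) (fl w (R - T) z) = fl w (u k - T) z := by
    rw [fl_add, show -(R - u k) + (R - T) = u k - T by ring]
  have hk := hm _ (hu k)
  obtain ⟨U', G', g1, g2⟩ := extend hw hZ hr c1 c2 c3 (sub_nonneg.2 (hu k).2.le) (e ▸ hk)
    (e ▸ k2) (by
      rw [e]
      have h5 := (hZ.sec.hG.continuousOn.continuousAt (hZ.sec.oU.mem_nhds hk)).eventually k1
      filter_upwards [h5, hZ.sec.oU.mem_nhds hk] with y a1 a2
      rw [← a1, hZ.sec.sec y a2])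
  exact hR.2 (hmax U' G' g1 g2)

theorem inverse (A : Act K Φ F w) (hb : K.NonnegBisec) (hK : K.Complete) (hw : ∀ j, 0 < w j)
    (hc : IsPreconnected M) (hp : p ∈ M) (h0 : F p = 0) (hi : Function.Injective (fderiv ℝ F p)) :
    ∃ H : (Fin n → ℂ) → Fin n → ℂ, Differentiable ℂ H ∧ (∀ y, H y ∈ M) ∧ (∀ y, F (H y) = y) ∧
      ∀ x ∈ M, H (F x) = x := by
  obtain ⟨χ, r, hr, c1, c2, c3, c4⟩ := loc_inv A.oM A.hF hp hi
  rw [h0] at c1 c2 c3
  obtain ⟨H, hH⟩ := global (ψ := χ) A hb hK hw ⟨⟨A.oM, isOpen_ball, A.hF, c1, c2, c3⟩,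
    mem_ball_self hr, fun z hz s hs => by
      rw [mem_ball_zero_iff] at hz ⊢
      exact (fl_norm hw (neg_nonpos.2 hs) z).trans_lt hz, EventuallyEq.rfl⟩
  have hd : Differentiable ℂ H := differentiableOn_univ.1 hH.sec.hG
  refine ⟨H, hd, fun y => hH.sec.maps (mem_univ y), fun y => hH.sec.sec y (mem_univ y), ?_⟩
  refine AnalyticOnNhd.eqOn_of_preconnected_of_eventuallyEq (𝕜 := ℂ) (f := fun x => H (F x))
    (g := fun x => x) (osgood A.oM (hd.comp_differentiableOn A.hF)) analyticOnNhd_id hc hp ?_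
  have h1 : Tendsto F (𝓝 p) (𝓝 0) := by
    rw [← h0]
    exact (A.hF.continuousOn.continuousAt (A.oM.mem_nhds hp)).tendsto
  filter_upwards [h1.eventually hH.germ, c4] with x a1 a2
  rw [a1, a2]

end Vale.Agent.P253.KahlerMetric
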