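import Vale.Agent.P253.Defs

/-! Circle actions by holomorphic isometries, biholomorphisms. -/

namespace Vale.Agent.P253

open Set

/-- The differential of `f` at `z`, applied to `Y`. -/
noncomputable def d1 {n : ℕ} (f : (Fin n → ℂ) → Fin n → ℂ) (z Y : Fin n → ℂ) : Fin n → ℂ :=
  fderiv ℝ f z Y

/-- A continuous action of the circle `ℝ / 2πℤ` on `M` by holomorphic isometries. -/
structure CircleAction {n : ℕ} {M : Set (Fin n → ℂ)} (K : KahlerMetric M)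
    (Φ : ℝ → (Fin n → ℂ) → Fin n → ℂ) : Prop where
  maps : ∀ θ, MapsTo (Φ θ) M M
  hol : ∀ θ, DifferentiableOn ℂ (Φ θ) M
  cont : ContinuousOn (Function.uncurry Φ) (univ ×ˢ M)
  zero : ∀ z ∈ M, Φ 0 z = z
  add : ∀ s t, ∀ z ∈ M, Φ (s + t) z = Φ s (Φ t z)
  per : ∀ s, ∀ z ∈ M, Φ (s + 2 * Real.pi) z = Φ s z
  iso : ∀ θ, ∀ z ∈ M, ∀ Y Z, ev K.g (Φ θ z) (d1 (Φ θ) z Y) (d1 (Φ θ) z Z) = ev K.g z Y Z

/-- `M` is biholomorphic to `Ω`. -/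
def Biholomorphic {n : ℕ} (M Ω : Set (Fin n → ℂ)) : Prop :=
  ∃ F G : (Fin n → ℂ) → (Fin n → ℂ), DifferentiableOn ℂ F M ∧ DifferentiableOn ℂ G Ω ∧
    MapsTo F M Ω ∧ MapsTo G Ω M ∧ (∀ p ∈ M, G (F p) = p) ∧ ∀ q ∈ Ω, F (G q) = q

end Vale.Agent.P253
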