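import Vale.Agent.P253.Defs2

/-! Kähler metrics on complex manifolds, given in the charts of the atlas. -/

namespace Vale.Agent.P253

open scoped ENNReal Topology Manifold
open Set Filter MeasureTheory

/-- A Kähler metric on a complex manifold `X`: a Kähler metric in every chart of the atlas, such that
the transition maps are isometries. -/
structure KahlerMfd (n : ℕ) (X : Type*) [TopologicalSpace X] [ChartedSpace (Fin n → ℂ) X] where
  K : ∀ e : atlas (Fin n → ℂ) X, KahlerMetric e.1.target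
  compat : ∀ e e' : atlas (Fin n → ℂ) X, ∀ x ∈ e.1.source, x ∈ e'.1.source → ∀ Y Z,
    ev (K e').g (e'.1 x) (d1 (e'.1 ∘ e.1.symm) (e.1 x) Y) (d1 (e'.1 ∘ e.1.symm) (e.1 x) Z) =
      ev (K e).g (e.1 x) Y Z

variable {n : ℕ} {X : Type*} [TopologicalSpace X] [ChartedSpace (Fin n → ℂ) X]

/-- The preferred chart at `x`. -/
noncomputable def ch (n : ℕ) [ChartedSpace (Fin n → ℂ) X] (x : X) : atlas (Fin n → ℂ) X :=
  ⟨chartAt (Fin n → ℂ) x, chart_mem_atlas _ x⟩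

/-- `C¹` paths. -/
def C1 (n : ℕ) [ChartedSpace (Fin n → ℂ) X] (γ : ℝ → X) : Prop :=
  Continuous γ ∧ ∀ t, ContDiffAt ℝ 1 ((ch n (γ t)).1 ∘ γ) t

namespace KahlerMfd

variable (K : KahlerMfd n X)

/-- The square of the speed of `γ` at the time `t`. -/
noncomputable def sp (γ : ℝ → X) (t : ℝ) : ℝ :=
  ev (K.K (ch n (γ t))).g ((ch n (γ t)).1 (γ t)) (deriv ((ch n (γ t)).1 ∘ γ) t)
    (deriv ((ch n (γ t)).1 ∘ γ) t)

/-- The Riemannian distance: the infimum of the lengths of `C¹` paths. -/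
noncomputable def dist (p q : X) : ℝ≥0∞ :=
  ⨅ (γ : ℝ → X) (_ : C1 n γ) (_ : γ 0 = p) (_ : γ 1 = q),
    ∫⁻ t in Icc (0 : ℝ) 1, ENNReal.ofReal √(K.sp γ t)

/-- Completeness: Cauchy sequences for the Riemannian distance converge. -/
def Complete : Prop :=
  ∀ x : ℕ → X, (∀ ε : ℝ≥0∞, 0 < ε → ∃ N, ∀ k ≥ N, ∀ l ≥ N, K.dist (x k) (x l) < ε) →
    ∃ p, Tendsto x atTop (𝓝 p)

/-- Nonnegative holomorphic bisectional curvature. -/
def NonnegBisec : Prop := ∀ e, (K.K e).NonnegBisec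

/-- A continuous action of the circle `ℝ / 2πℤ` on `X` by holomorphic isometries. -/
structure Circle (Φ : ℝ → X → X) : Prop where
  hol : ∀ θ, MDifferentiable 𝓘(ℂ, Fin n → ℂ) 𝓘(ℂ, Fin n → ℂ) (Φ θ)
  cont : Continuous (Function.uncurry Φ)
  zero : ∀ x, Φ 0 x = x
  add : ∀ s t x, Φ (s + t) x = Φ s (Φ t x)
  per : ∀ s x, Φ (s + 2 * Real.pi) x = Φ s x
  iso : ∀ θ (e e' : atlas (Fin n → ℂ) X), ∀ x ∈ e.1.source, Φ θ x ∈ e'.1.source → ∀ Y Z,
    ev (K.K e').g (e'.1 (Φ θ x)) (d1 (e'.1 ∘ Φ θ ∘ e.1.symm) (e.1 x) Y)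
      (d1 (e'.1 ∘ Φ θ ∘ e.1.symm) (e.1 x) Z) = ev (K.K e).g (e.1 x) Y Z

end KahlerMfd

/-- The differential at `x` of a map to `ℂⁿ`, read in the chart at `x`. -/
noncomputable def dch (f : X → Fin n → ℂ) (x : X) (Y : Fin n → ℂ) : Fin n → ℂ :=
  d1 (f ∘ (ch n x).1.symm) ((ch n x).1 x) Y

end Vale.Agent.P253
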