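import Vale.Agent.P253.Defs3

/-! Differentials at fixed points, biholomorphisms of manifolds. -/

namespace Vale.Agent.P253

open scoped Manifold

variable {n : ℕ} {X : Type*} [TopologicalSpace X] [ChartedSpace (Fin n → ℂ) X]

/-- Holomorphic maps to `ℂⁿ`. -/
def HolTo (f : X → Fin n → ℂ) : Prop := MDifferentiable 𝓘(ℂ, Fin n → ℂ) 𝓘(ℂ, Fin n → ℂ) f

/-- Holomorphic maps from `ℂⁿ`. -/
def HolFrom (g : (Fin n → ℂ) → X) : Prop := MDifferentiable 𝓘(ℂ, Fin n → ℂ) 𝓘(ℂ, Fin n → ℂ) g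

/-- Global holomorphic functions give local coordinates at `p`. -/
def CoordAt (n : ℕ) [ChartedSpace (Fin n → ℂ) X] (p : X) : Prop :=
  ∃ f : X → Fin n → ℂ, HolTo f ∧ Function.Injective (dch f p)

/-- In some complex basis of the tangent space at the fixed point `p` the differential of `Φ θ` is
diagonal with entries `exp (i θ w j)`. -/
def Weights (Φ : ℝ → X → X) (p : X) (w : Fin n → ℕ) : Prop :=
  ∃ L : (Fin n → ℂ) ≃ₗ[ℂ] (Fin n → ℂ), ∀ θ Y,
    L (dch ((ch n p).1 ∘ Φ θ) p Y) = rot (fun j => (w j : ℝ)) θ (L Y)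

/-- `X` is biholomorphic to `ℂⁿ`. -/
def IsCn (n : ℕ) (X : Type*) [TopologicalSpace X] [ChartedSpace (Fin n → ℂ) X] : Prop :=
  ∃ (F : X → Fin n → ℂ) (G : (Fin n → ℂ) → X), HolTo F ∧ HolFrom G ∧ (∀ x, G (F x) = x) ∧
    ∀ y, F (G y) = y

end Vale.Agent.P253
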