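import Vale.Agent.P253.Kill

/-! The covariant derivative of the field `a` decreases along its flow. -/

namespace Vale.Agent.P253.KahlerMetric

open scoped ContDiff ENNReal Topology
open Set Filter Complex

variable {n : ℕ} {M : Set (Fin n → ℂ)} {K : KahlerMetric M} {a : (Fin n → ℂ) →L[ℝ] (Fin n → ℂ)}
  {c : ℝ → Fin n → ℂ}

theorem mono_of {f : ℝ → ℝ} {T : ℝ} (hT : 0 ≤ T)
    (h : ∀ s ∈ Icc 0 T, ∃ f', HasDerivAt f f' s ∧ 0 ≤ f') : f 0 ≤ f T := by
  refine monotoneOn_of_deriv_nonneg (convex_Icc 0 T) (fun s hs => ?_) (fun s hs => ?_)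
    (fun s hs => ?_) (left_mem_Icc.2 hT) (right_mem_Icc.2 hT) hT
  · obtain ⟨f', h1, -⟩ := h s hs
    exact h1.continuousAt.continuousWithinAt
  · obtain ⟨f', h1, -⟩ := h s (interior_subset hs)
    exact h1.differentiableAt.differentiableWithinAt
  · obtain ⟨f', h1, h2⟩ := h s (interior_subset hs)
    rw [h1.deriv]
    exact h2

theorem diff_inv {E F : Type} [NormedAddCommGroup E] [NormedSpace ℝ E] [NormedAddCommGroup F]
    [NormedSpace ℝ F] [CompleteSpace E] {G : ℝ → E →L[ℝ] F} {η : ℝ → F} {s : ℝ}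
    (hG : DifferentiableAt ℝ G s) (hi : (G s).IsInvertible) (hη : DifferentiableAt ℝ η s) :
    DifferentiableAt ℝ (fun r => (G r).inverse (η r)) s := by
  have h1 : DifferentiableAt ℝ (ContinuousLinearMap.inverse : (E →L[ℝ] F) → F →L[ℝ] E) (G s) :=
    (hi.contDiffAt_map_inverse (n := 1)).differentiableAt one_ne_zero
  exact (h1.comp s hG).clm_apply hη

theorem diff_comp {E F : Type} [NormedAddCommGroup E] [NormedSpace ℝ E] [NormedAddCommGroup F]
    [NormedSpace ℝ F] {f : E → F} {f' : E →L[ℝ] F} {c : ℝ → E} {c' : E} {s : ℝ}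
    (hf : HasFDerivAt f f' (c s)) (hc : HasDerivAt c c' s) :
    DifferentiableAt ℝ (fun r => f (c r)) s :=
  (hf.comp_hasDerivAt s hc).differentiableAt

theorem exists_eta {E : Type} [NormedAddCommGroup E] [NormedSpace ℝ E] [CompleteSpace E]
    (x : E →L[ℝ] E) (ξ : E →L[ℝ] ℝ) (T : ℝ) : ∃ η : ℝ → E →L[ℝ] ℝ, η T = ξ ∧
      ∀ s, DifferentiableAt ℝ η s ∧ ∀ Z, HasDerivAt (fun r => η r Z) (η s (x Z)) s := by
  have h : ∀ s : ℝ, HasDerivAt (fun r : ℝ => NormedSpace.exp ((r - T) • x))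
      (NormedSpace.exp ((s - T) • x) * x) s := fun s => by
    have := (hasDerivAt_exp_smul_const x (s - T)).scomp s ((hasDerivAt_id s).sub_const T)
    simpa [Function.comp_def] using this
  refine ⟨fun r => ξ.comp (NormedSpace.exp ((r - T) • x)), ?_, fun s => ⟨?_, fun Z => ?_⟩⟩
  · simp only [sub_self, zero_smul, NormedSpace.exp_zero]
    rfl
  · exact (differentiableAt_const ξ).clm_comp (h s).differentiableAt
  · have h1 := (h s).clm_apply (hasDerivAt_const s Z)
    have h2 := ξ.hasFDerivAt.comp_hasDerivAt s h1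
    simpa [Function.comp_def] using h2

theorem exists_y (h : K.Kil a) (hM : IsOpen M) (hc : ∀ s, HasDerivAt c (a (c s)) s) (C T : ℝ)
    (hT : c T ∈ M) (u : Fin n → ℂ) : ∃ y : ℝ → Fin n → ℂ, y T = u ∧ ∀ s, c s ∈ M →
      HasDerivAt y (C • y s - K.Γ (c s) (a (c s)) (y s) - a (y s) -
        K.Γ (c s) (a (c s)) (y s)) s := by
  obtain ⟨η, h0, hη⟩ := exists_eta (C • ContinuousLinearMap.id ℝ (Fin n → ℂ) - a) (K.g (c T) u) T
  refine ⟨fun r => (K.g (c r)).inverse (η r), ?_, fun s hs => ?_⟩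
  · simp only [h0]
    exact (K.inv_g hT).inverse_apply_self u
  · have hd := (diff_inv (diff_comp (K.dg hM hs) (hc s)) (K.inv_g hs) (hη s).1).hasDerivAt
    set y : ℝ → Fin n → ℂ := fun r => (K.g (c r)).inverse (η r) with hy
    have he : ∀ r, c r ∈ M → K.g (c r) (y r) = η r := fun r hr =>
      (K.inv_g hr).self_apply_inverse _
    have hn : ∀ᶠ r in 𝓝 s, c r ∈ M := (hc s).continuousAt.eventually (hM.mem_nhds hs)
    have : deriv y s = C • y s - K.Γ (c s) (a (c s)) (y s) - a (y s) -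
        K.Γ (c s) (a (c s)) (y s) := by
      refine K.ext_g hs fun Z => ?_
      have h1 := line (K.dg hM hs) (hc s) hd (hasDerivAt_const s Z)
      have h2 := h1.unique (((hη s).2 Z).congr_of_eventuallyEq
        (hn.mono fun r hr => by simp only [he r hr]))
      rw [← he s hs, K.compat hM hs] at h2
      have h3 := h.adj hM hs (y s) Z
      simp only [map_sub, map_smul, map_zero, _root_.sub_apply, _root_.smul_apply,
        ContinuousLinearMap.id_apply, smul_eq_mul] at h2 ⊢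
      linarith
    rw [← this]
    exact hd

theorem bound (h : K.Kil a) (hM : IsOpen M) (hb : K.NonnegBisec)
    (hc : ∀ s, HasDerivAt c (a (c s)) s) {C T : ℝ} (hT : 0 ≤ T) (hm : ∀ s ∈ Icc 0 T, c s ∈ M)
    (h0 : ∀ u, K.g (c 0) (K.Γ (c 0) (a (c 0)) u + a u) u ≤ C * K.g (c 0) u u) (u : Fin n → ℂ) :
    K.g (c T) (K.Γ (c T) (a (c T)) u + a u) u ≤ C * K.g (c T) u u := by
  obtain ⟨y, hyT, hy⟩ := exists_y h hM hc C T (hm T (right_mem_Icc.2 hT)) u
  have key := mono_of (f := fun s =>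
    K.g (c s) (C • y s - K.Γ (c s) (a (c s)) (y s) - a (y s)) (y s)) hT fun s hs => by
      have hs' := hm s hs
      have h1 := hy s hs'
      have hX : HasDerivAt (fun r => a (c r)) (a (a (c s))) s :=
        a.hasFDerivAt.comp_hasDerivAt s (hc s)
      have h2 := line (K.dG hM hs') (hc s) hX h1
      have h3 : HasDerivAt (fun r => a (y r)) _ s := a.hasFDerivAt.comp_hasDerivAt s h1
      have h4 := ((h1.const_smul C).sub h2).sub h3
      refine ⟨_, line (K.dg hM hs') (hc s) h4 h1, ?_⟩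
      have h5 := h.curv hM hb hs' (y s)
      set w := C • y s - K.Γ (c s) (a (c s)) (y s) - a (y s) with hw
      have h6 := K.nonneg hs' w
      have h7 := h.adj hM hs' (w - K.Γ (c s) (a (c s)) (y s)) (y s)
      have h8 := h.adj hM hs' (K.Γ (c s) (a (c s)) (y s)) (y s)
      have e1 : ∀ V, K.g (c s) V w = C * K.g (c s) V (y s) -
          K.g (c s) V (K.Γ (c s) (a (c s)) (y s)) - K.g (c s) V (a (y s)) := fun V => by
        rw [hw]
        simp only [map_sub, map_smul, smul_eq_mul]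
      have e2 : K.g (c s) (K.Γ (c s) (a (c s)) w) (y s) =
          C * K.g (c s) (K.Γ (c s) (a (c s)) (y s)) (y s) -
          K.g (c s) (K.Γ (c s) (a (c s)) (K.Γ (c s) (a (c s)) (y s))) (y s) -
          K.g (c s) (K.Γ (c s) (a (c s)) (a (y s))) (y s) := by
        rw [hw]
        simp only [map_sub, map_smul, smul_eq_mul, _root_.sub_apply, _root_.smul_apply]
      have e3 := e1 w
      have e4 := e1 (K.Γ (c s) (a (c s)) (y s))
      have e5 := K.symm _ hs' w (K.Γ (c s) (a (c s)) (y s))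
      rw [K.compat hM hs']
      simp only [map_sub, map_add, map_smul, smul_eq_mul, _root_.sub_apply, _root_.add_apply,
        _root_.smul_apply] at h7 ⊢
      linarith
  have h1 := h0 (y 0)
  simp only [hyT, map_sub, map_add, map_smul, smul_eq_mul, _root_.sub_apply, _root_.add_apply,
    _root_.smul_apply] at key h1 ⊢
  linarith

theorem growth (h : K.Kil a) (hM : IsOpen M) (hb : K.NonnegBisec)
    (hc : ∀ s, HasDerivAt c (a (c s)) s) {R : ℝ} (hm : ∀ s ∈ Ico 0 R, c s ∈ M) (hR : 0 < R) :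
    ∃ L : ℝ, 0 ≤ L ∧ ∀ s ∈ Ico 0 R, K.g (c s) (a (c s)) (a (c s)) ≤ L := by
  have h0 := hm 0 ⟨le_rfl, hR⟩
  obtain ⟨C, hC, hB⟩ := K.exists_bound h0 (K.Γ (c 0) (a (c 0)) + a)
  refine ⟨Real.exp (2 * C * R) * K.g (c 0) (a (c 0)) (a (c 0)),
    mul_nonneg (Real.exp_pos _).le (K.nonneg h0 _), fun T hT => ?_⟩
  have hm' : ∀ s ∈ Icc 0 T, c s ∈ M := fun s hs => hm s ⟨hs.1, hs.2.trans_lt hT.2⟩
  have key := mono_of (f := fun s =>
    -(Real.exp (-(2 * C * s)) * K.g (c s) (a (c s)) (a (c s)))) hT.1 fun s hs => by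
      have hs' := hm' s hs
      have hX : HasDerivAt (fun r => a (c r)) (a (a (c s))) s :=
        a.hasFDerivAt.comp_hasDerivAt s (hc s)
      have h1 := line (K.dg hM hs') (hc s) hX hX
      have h2 : HasDerivAt (fun r : ℝ => Real.exp (-(2 * C * r)))
          (Real.exp (-(2 * C * s)) * (-(2 * C * 1))) s :=
        (((hasDerivAt_id s).const_mul (2 * C)).neg).exp
      refine ⟨_, (h2.mul h1).neg, ?_⟩
      have h3 := bound h hM hb hc hs.1 (fun r hr => hm' r ⟨hr.1, hr.2.trans hs.2⟩) hB (a (c s))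
      rw [K.compat hM hs', K.symm _ hs' (a (c s)) (K.Γ _ _ _),
        K.symm _ hs' (a (c s)) (a (a (c s)))]
      simp only [map_add, _root_.add_apply] at h3
      have h4 := mul_nonneg (Real.exp_pos (-(2 * C * s))).le (sub_nonneg.2 h3)
      linarith
  simp only [mul_zero, neg_zero, Real.exp_zero, one_mul, neg_le_neg_iff] at key
  have h5 : Real.exp (2 * C * T) ≤ Real.exp (2 * C * R) :=
    Real.exp_le_exp.2 (mul_le_mul_of_nonneg_left hT.2.le (by positivity))
  have h6 : Real.exp (2 * C * T) * Real.exp (-(2 * C * T)) = 1 := by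
    rw [← Real.exp_add, add_neg_cancel, Real.exp_zero]
  calc K.g (c T) (a (c T)) (a (c T))
      = Real.exp (2 * C * T) * (Real.exp (-(2 * C * T)) * K.g (c T) (a (c T)) (a (c T))) := by
        rw [← mul_assoc, h6, one_mul]
    _ ≤ Real.exp (2 * C * T) * K.g (c 0) (a (c 0)) (a (c 0)) :=
        mul_le_mul_of_nonneg_left key (Real.exp_pos _).le
    _ ≤ _ := mul_le_mul_of_nonneg_right h5 (K.nonneg h0 _)

end Vale.Agent.P253.KahlerMetric
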