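import Vale.Agent.P253.Avg
import Vale.Agent.P253.Defs3
import Vale.Agent.P278.Ident

/-! Gluing of local Kähler metrics; sections with values in a manifold. -/

namespace Vale.Agent.P253.KahlerMetric

open scoped ContDiff ENNReal Topology Manifold
open Set Filter Complex Metric Vale.Agent.P278

variable {n : ℕ} {U V V' : Set (Fin n → ℂ)} {z : Fin n → ℂ}
  {a : (Fin n → ℂ) →L[ℝ] (Fin n → ℂ)}

theorem dd_congr {E F : Type} [NormedAddCommGroup E] [NormedSpace ℝ E] [NormedAddCommGroup F]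
    [NormedSpace ℝ F] {f f' : E → E →L[ℝ] E →L[ℝ] F} {p : E} (h : f =ᶠ[𝓝 p] f') (X Y Z : E) :
    dd f p X Y Z = dd f' p X Y Z := by
  unfold dd
  rw [EventuallyEq.fderiv_eq (f := fun q => ev f' q Y Z) (h.mono fun q hq => by
    simp only [ev, hq])]

theorem G_uniq (K : KahlerMetric V) (K' : KahlerMetric V') (hz : z ∈ V) (hz' : z ∈ V')
    (h : K.g =ᶠ[𝓝 z] K'.g) : K.Γ z = K'.Γ z := by
  refine ContinuousLinearMap.ext fun X => ContinuousLinearMap.ext fun Y => K.ext_g hz fun Z => ?_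
  have h1 := K.koszul' z hz X Y Z
  have h2 := K'.koszul' z hz' X Y Z
  rw [dd_congr h, dd_congr h, dd_congr h, ← h2] at h1
  simp only [ev] at h1
  rw [h1, h.self_of_nhds]

theorem glue (g : (Fin n → ℂ) → (Fin n → ℂ) →L[ℝ] (Fin n → ℂ) →L[ℝ] ℝ)
    (h : ∀ z ∈ U, ∃ (V : Set (Fin n → ℂ)) (K : KahlerMetric V), IsOpen V ∧ z ∈ V ∧ V ⊆ U ∧
      (∀ y ∈ V, g y = K.g y) ∧ K.NonnegBisec ∧ K.Kil a) (lin : ∀ X, a (I • X) = I • a X) :
    ∃ K : KahlerMetric U, K.g = g ∧ K.NonnegBisec ∧ K.Kil a := by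
  classical
  choose V K oV hz hs hg hb hk using h
  let Γ : (Fin n → ℂ) → (Fin n → ℂ) →L[ℝ] (Fin n → ℂ) →L[ℝ] (Fin n → ℂ) :=
    fun z => if h : z ∈ U then (K z h).Γ z else 0
  have eg : ∀ z h, ∀ y ∈ V z h, g =ᶠ[𝓝 y] (K z h).g := fun z h y hy =>
    ((oV z h).eventually_mem hy).mono (hg z h)
  have eG : ∀ z h, Γ =ᶠ[𝓝 z] (K z h).Γ := fun z h =>
    ((oV z h).eventually_mem (hz z h)).mono fun y hy => by
      simp only [Γ, dif_pos (hs z h hy)]
      exact G_uniq _ _ (hz y _) hy ((eg y _ y (hz y _)).symm.trans (eg z h y hy))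
  have eg' : ∀ z h, g =ᶠ[𝓝 z] (K z h).g := fun z h => eg z h z (hz z h)
  refine ⟨⟨g, Γ, fun z h => ?_, fun z h => ?_, fun z h X Y => ?_, fun z h X hX => ?_,
    fun z h X Y => ?_, fun z h X Y Z => ?_, fun z h X Y Z => ?_⟩, rfl, fun z h u v hu hv => ?_,
    lin, fun z h Y Z => ?_, fun z h Y Z => ?_⟩
  · exact ((ContDiffOn.contDiffAt (K z h).smooth ((oV z h).mem_nhds (hz z h))).congr_of_eventuallyEq
      (eg' z h)).contDiffWithinAt
  · exact ((ContDiffOn.contDiffAt (K z h).smoothΓ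
      ((oV z h).mem_nhds (hz z h))).congr_of_eventuallyEq (eG z h)).contDiffWithinAt
  · simp only [ev, (eg' z h).self_of_nhds]
    exact (K z h).symm z (hz z h) X Y
  · simp only [ev, (eg' z h).self_of_nhds]
    exact (K z h).pos z (hz z h) X hX
  · simp only [ev, (eg' z h).self_of_nhds]
    exact (K z h).hermitian z (hz z h) X Y
  · simp only [dd_congr (eg' z h)]
    exact (K z h).closed' z (hz z h) X Y Z
  · simp only [dd_congr (eg' z h), ev, (eg' z h).self_of_nhds, (eG z h).self_of_nhds]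
    exact (K z h).koszul' z (hz z h) X Y Z
  · simp only [ev, (eg' z h).self_of_nhds] at hu hv
    have := hb z h z (hz z h) u v hu hv
    simp only [rm, riem, dd_congr (eG z h), ev, (eg' z h).self_of_nhds,
      (eG z h).self_of_nhds] at this ⊢
    exact this
  · simp only [(eg' z h).fderiv_eq, (eg' z h).self_of_nhds]
    exact (hk z h).k1 z (hz z h) Y Z
  · simp only [(eG z h).fderiv_eq, (eG z h).self_of_nhds]
    exact (hk z h).k2 z (hz z h) Y Z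

variable {X : Type*} [TopologicalSpace X] [ChartedSpace (Fin n → ℂ) X]
  [IsManifold 𝓘(ℂ, Fin n → ℂ) ω X] {F : X → Fin n → ℂ} {G : (Fin n → ℂ) → X}

theorem d_to (e : atlas (Fin n → ℂ) X) (h : MDifferentiableAt 𝓘(ℂ, Fin n → ℂ) 𝓘(ℂ, Fin n → ℂ) G z)
    (hz : G z ∈ e.1.source) : DifferentiableAt ℂ (e.1 ∘ G) z :=
  mdifferentiableAt_iff_differentiableAt.1 ((mdifferentiableAt_atlas e.2 hz).comp z h)

theorem d_symm (e : atlas (Fin n → ℂ) X) (hz : z ∈ e.1.target) :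
    MDifferentiableAt 𝓘(ℂ, Fin n → ℂ) 𝓘(ℂ, Fin n → ℂ) e.1.symm z :=
  mdifferentiableAt_atlas_symm e.2 hz

theorem d_from (e : atlas (Fin n → ℂ) X) (h : MDifferentiable 𝓘(ℂ, Fin n → ℂ) 𝓘(ℂ, Fin n → ℂ) F) :
    DifferentiableOn ℂ (F ∘ e.1.symm) e.1.target := fun z hz =>
  (mdifferentiableAt_iff_differentiableAt.1 ((h _).comp z (d_symm e hz))).differentiableWithinAt

/-- `G` is a holomorphic section of `F` over `U`. -/
structure SecX (U : Set (Fin n → ℂ)) (F : X → Fin n → ℂ) (G : (Fin n → ℂ) → X) : Prop where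
  oU : IsOpen U
  hF : MDifferentiable 𝓘(ℂ, Fin n → ℂ) 𝓘(ℂ, Fin n → ℂ) F
  hG : ∀ z ∈ U, MDifferentiableAt 𝓘(ℂ, Fin n → ℂ) 𝓘(ℂ, Fin n → ℂ) G z
  sec : ∀ z ∈ U, F (G z) = z

theorem SecX.loc (h : SecX U F G) (e : atlas (Fin n → ℂ) X) :
    Sec e.1.target (U ∩ G ⁻¹' e.1.source) (F ∘ e.1.symm) (e.1 ∘ G) where
  oM := e.1.open_target
  oU := ContinuousOn.isOpen_inter_preimage
    (fun z hz => (h.hG z hz).continuousAt.continuousWithinAt) h.oU e.1.open_source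
  hF := d_from e h.hF
  hG := fun z hz => (d_to e (h.hG z hz.1) hz.2).differentiableWithinAt
  maps := fun _ hz => e.1.map_source hz.2
  sec := fun z hz => by
    simp only [Function.comp]
    rw [e.1.left_inv hz.2, h.sec z hz.1]

theorem chain {f g k : (Fin n → ℂ) → Fin n → ℂ} (hf : DifferentiableAt ℂ f (g z))
    (hg : DifferentiableAt ℂ g z) (h : k =ᶠ[𝓝 z] f ∘ g) (Y : Fin n → ℂ) :
    fderiv ℝ k z Y = fderiv ℝ f (g z) (fderiv ℝ g z Y) := by
  rw [h.fderiv_eq, fderiv_comp z (hf.restrictScalars ℝ) (hg.restrictScalars ℝ)]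
  rfl

theorem SecX.pg_eq (h : SecX U F G) (K : KahlerMfd n X) (e e' : atlas (Fin n → ℂ) X) (hz : z ∈ U)
    (h1 : G z ∈ e.1.source) (h2 : G z ∈ e'.1.source) :
    (K.K e').pg (e'.1 ∘ G) z = (K.K e).pg (e.1 ∘ G) z := by
  have c : ∀ Y, fderiv ℝ (e'.1 ∘ G) z Y =
      fderiv ℝ (e'.1 ∘ e.1.symm) (e.1 (G z)) (fderiv ℝ (e.1 ∘ G) z Y) := fun Y =>
    chain (g := e.1 ∘ G) (d_to e' (d_symm e (e.1.map_source h1)) (by
      simp only [Function.comp]
      rwa [e.1.left_inv h1])) (d_to e (h.hG z hz) h1)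
      (((h.hG z hz).continuousAt.eventually (e.1.open_source.mem_nhds h1)).mono fun y hy => by
        simp only [Function.comp]
        rw [e.1.left_inv hy]) Y
  refine ContinuousLinearMap.ext fun Y => ContinuousLinearMap.ext fun Z => ?_
  rw [pg_apply, pg_apply, c, c]
  exact K.compat e e' _ h1 h2 _ _

variable {K : KahlerMfd n X} {Φ : ℝ → X → X} {w : Fin n → ℝ}

theorem SecX.kil (h : SecX U F G) (A : K.Circle Φ) (eqv : ∀ θ x, F (Φ θ x) = rot w θ (F x))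
    (e : atlas (Fin n → ℂ) X) : ((K.K e).pull (h.loc e)).Kil (dia fun j => (w j : ℂ)) := by
  have hl := h.loc e
  refine ((K.K e).pull hl).kil_rotL hl.oU w fun z hz => ?_
  obtain ⟨ψ, r, -, -, -, -, hψ⟩ := loc_inv hl.oM hl.hF (hl.maps hz)
    (Function.LeftInverse.injective (hl.GF hz))
  have hψ' : ∀ᶠ x in 𝓝 (G z), x ∈ e.1.source ∧ e.1.symm (ψ (F x)) = x := by
    filter_upwards [e.1.open_source.mem_nhds hz.2, (e.1.continuousAt hz.2).eventually hψ]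
      with x a1 a2
    simp only [Function.comp] at a2
    rw [e.1.left_inv a1] at a2
    exact ⟨a1, by rw [a2, e.1.left_inv a1]⟩
  have hG : ContinuousAt G z := (h.hG z hz.1).continuousAt
  have t1 : Tendsto (fun t : ℝ × (Fin n → ℂ) => rot w t.1 t.2) (𝓝 (0, z)) (𝓝 z) := by
    have := (rot_cont w).tendsto (0, z)
    rwa [rot_zero] at this
  have t0 : Tendsto (fun t : ℝ × (Fin n → ℂ) => t.2) (𝓝 (0, z)) (𝓝 z) :=
    continuous_snd.tendsto (0, z)
  have t2 : Tendsto (fun t : ℝ × (Fin n → ℂ) => Φ t.1 (G t.2)) (𝓝 (0, z)) (𝓝 (G z)) := by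
    have h2 : Tendsto (fun t : ℝ × (Fin n → ℂ) => (t.1, G t.2)) (𝓝 (0, z)) (𝓝 (0, G z)) :=
      (continuous_fst.tendsto (0, z)).prodMk_nhds (hG.tendsto.comp t0)
    have h3 := (A.cont.tendsto (0, G z)).comp h2
    rwa [Function.uncurry_apply_pair, A.zero] at h3
  have hE : ∀ᶠ t : ℝ × (Fin n → ℂ) in 𝓝 (0, z), t.2 ∈ U ∩ G ⁻¹' e.1.source ∧
      rot w t.1 t.2 ∈ U ∩ G ⁻¹' e.1.source ∧ G (rot w t.1 t.2) = Φ t.1 (G t.2) := by
    filter_upwards [t0.eventually (hl.oU.mem_nhds hz), t1.eventually (hl.oU.mem_nhds hz),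
      (hG.tendsto.comp t1).eventually hψ', t2.eventually hψ'] with t a1 a2 a3 a4
    refine ⟨a1, a2, ?_⟩
    simp only [Function.comp] at a3
    rw [← a3.2, ← a4.2, h.sec _ a2.1, eqv, h.sec _ a1.1]
  filter_upwards [hE.curry_nhds] with θ hθ
  refine ⟨hθ.self_of_nhds.2.1, hθ.eventually_nhds.mono fun q hq Y Z => ?_⟩
  obtain ⟨a1, a2, a3⟩ := hq.self_of_nhds
  have a4 : Φ θ (G q) ∈ e.1.source := a3 ▸ a2.2
  have d1 : HasFDerivAt (fun y => (e.1 ∘ G) (rot w θ y)) ((fderiv ℝ (e.1 ∘ G) (rot w θ q)).comp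
      (dia fun j => exp (I * (θ * w j : ℝ)))) q :=
    ((hl.hG.differentiableAt (hl.oU.mem_nhds a2)).restrictScalars ℝ).hasFDerivAt.comp q
      (dia fun j => exp (I * (θ * w j : ℝ))).hasFDerivAt
  have d4 : ∀ Y, fderiv ℝ (e.1 ∘ G) (rot w θ q) (rot w θ Y) =
      fderiv ℝ (e.1 ∘ Φ θ ∘ e.1.symm) (e.1 (G q)) (fderiv ℝ (e.1 ∘ G) q Y) := fun Y => by
    have d5 := chain (k := fun y => (e.1 ∘ G) (rot w θ y)) (g := e.1 ∘ G)
      (d_to e (G := Φ θ ∘ e.1.symm) ((A.hol θ _).comp _ (d_symm e (hl.maps a1))) (by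
        simp only [Function.comp]
        rwa [e.1.left_inv a1.2])) (hl.hG.differentiableAt (hl.oU.mem_nhds a1))
      (hq.mono fun y hy => by
        simp only [Function.comp]
        rw [e.1.left_inv hy.1.2, hy.2.2]) Y
    rw [d1.fderiv] at d5
    exact d5
  show (K.K e).pg (e.1 ∘ G) _ _ _ = (K.K e).pg (e.1 ∘ G) _ _ _
  rw [pg_apply, pg_apply, d4, d4]
  have a5 := A.iso θ e e (G q) a1.2 a4 (fderiv ℝ (e.1 ∘ G) q Y) (fderiv ℝ (e.1 ∘ G) q Z)
  rw [← a3] at a5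
  exact a5

theorem SecX.glob (h : SecX U F G) (A : K.Circle Φ) (eqv : ∀ θ x, F (Φ θ x) = rot w θ (F x))
    (hb : K.NonnegBisec) : ∃ KU : KahlerMetric U, KU.NonnegBisec ∧
      KU.Kil (dia fun j => (w j : ℂ)) ∧ ∀ z ∈ U, ∀ e : atlas (Fin n → ℂ) X, G z ∈ e.1.source →
        KU.g z = (K.K e).pg (e.1 ∘ G) z := by
  obtain ⟨KU, h1, h2, h3⟩ := glue (U := U) (a := dia fun j => (w j : ℂ))
    (fun z => (K.K (ch n (G z))).pg ((ch n (G z)).1 ∘ G) z)
    (fun z hz => ⟨_, (K.K (ch n (G z))).pull (h.loc _), (h.loc _).oU,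
      ⟨hz, mem_chart_source _ _⟩, inter_subset_left,
      fun y hy => h.pg_eq K _ _ hy.1 hy.2 (mem_chart_source _ _),
      (K.K _).pull_bisec _ (hb _), h.kil A eqv _⟩) fun Y => by
    funext j
    simp only [dia_apply, Pi.smul_apply, smul_eq_mul]
    ring
  refine ⟨KU, h2, h3, fun z hz e he => ?_⟩
  rw [h1]
  exact h.pg_eq K _ _ hz he (mem_chart_source _ _)

end Vale.Agent.P253.KahlerMetric
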