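import Vale.Agent.P253.Pull

/-! Local invariance gives a Killing field; growth of frames; limits of finite length paths. -/

namespace Vale.Agent.P253.KahlerMetric

open scoped ContDiff ENNReal Topology
open Set Filter Complex MeasureTheory

variable {n : ℕ} {M U : Set (Fin n → ℂ)} (K : KahlerMetric M) {p : Fin n → ℂ}

theorem D_isoL (hM : IsOpen M) (T : (Fin n → ℂ) →L[ℝ] (Fin n → ℂ)) (hT : T p ∈ M)
    (hi : ∀ᶠ q in 𝓝 p, ∀ Y Z, K.g (T q) (T Y) (T Z) = K.g q Y Z) (hp : p ∈ M)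
    (X Y Z : Fin n → ℂ) : fderiv ℝ K.g (T p) (T X) (T Y) (T Z) = fderiv ℝ K.g p X Y Z := by
  have hc := ln p X
  have hc' : HasDerivAt (fun s : ℝ => T (p + s • X)) (T X) 0 :=
    T.hasFDerivAt.comp_hasDerivAt 0 hc
  have hf : HasFDerivAt K.g (fderiv ℝ K.g p) ((fun s : ℝ => p + s • X) 0) := by
    simpa using K.dg hM hp
  have hf' : HasFDerivAt K.g (fderiv ℝ K.g (T p)) ((fun s : ℝ => T (p + s • X)) 0) := by
    simpa using K.dg hM hT
  have h1 := line hf hc (hasDerivAt_const 0 Y) (hasDerivAt_const 0 Z)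
  have h2 := line hf' hc' (hasDerivAt_const 0 (T Y)) (hasDerivAt_const 0 (T Z))
  have h3 : ∀ᶠ s in 𝓝 (0 : ℝ), ∀ Y Z, K.g (T (p + s • X)) (T Y) (T Z) = K.g (p + s • X) Y Z :=
    hc.continuousAt.eventually (by simpa using hi)
  have h4 := h2.unique (h1.congr_of_eventuallyEq (h3.mono fun s hs => hs Y Z))
  simpa using h4

theorem kil_ofL (hM : IsOpen M) (a : (Fin n → ℂ) →L[ℝ] (Fin n → ℂ))
    (lin : ∀ X, a (I • X) = I • a X) (T : ℝ → (Fin n → ℂ) →L[ℝ] (Fin n → ℂ))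
    (h0 : ∀ Y, T 0 Y = Y) (hd : ∀ Y, HasDerivAt (fun θ => T θ Y) (I • a Y) 0)
    (hs : ∀ θ, Function.Surjective (T θ))
    (hi : ∀ p ∈ M, ∀ᶠ θ in 𝓝 0, T θ p ∈ M ∧
      ∀ᶠ q in 𝓝 p, ∀ Y Z, K.g (T θ q) (T θ Y) (T θ Z) = K.g q Y Z) : K.Kil a := by
  refine ⟨lin, fun p hp Y Z => ?_, fun p hp Y Z => ?_⟩
  · have hf : HasFDerivAt K.g (fderiv ℝ K.g p) ((fun θ => T θ p) 0) := by
      simpa only [h0] using K.dg hM hp
    have h1 := line hf (hd p) (hd Y) (hd Z)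
    simp only [h0] at h1
    exact h1.unique ((hasDerivAt_const _ (K.g p Y Z)).congr_of_eventuallyEq
      ((hi p hp).mono fun θ hθ => hθ.2.self_of_nhds Y Z))
  · have hf : HasFDerivAt K.Γ (fderiv ℝ K.Γ p) ((fun θ => T θ p) 0) := by
      simpa only [h0] using K.dG hM hp
    have h1 := line hf (hd p) (hd Y) (hd Z)
    simp only [h0] at h1
    refine h1.unique ((hd _).congr_of_eventuallyEq ((hi p hp).mono fun θ hθ => ?_))
    refine K.ext_g hθ.1 fun W => ?_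
    obtain ⟨W, rfl⟩ := hs θ W
    rw [hθ.2.self_of_nhds, K.koszul hM p hp, K.koszul hM _ hθ.1, K.D_isoL hM _ hθ.1 hθ.2 hp,
      K.D_isoL hM _ hθ.1 hθ.2 hp, K.D_isoL hM _ hθ.1 hθ.2 hp]

theorem kil_rotL (hM : IsOpen M) (w : Fin n → ℝ) (hi : ∀ p ∈ M, ∀ᶠ θ in 𝓝 0, rot w θ p ∈ M ∧
      ∀ᶠ q in 𝓝 p, ∀ Y Z, K.g (rot w θ q) (rot w θ Y) (rot w θ Z) = K.g q Y Z) :
    K.Kil (dia fun j => (w j : ℂ)) := by
  refine K.kil_ofL hM _ (fun X => ?_) (fun θ => dia fun j => exp (I * (θ * w j : ℝ)))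
    (fun Y => ?_) (fun Y => ?_) (fun θ Y => ?_) hi
  · funext j
    simp only [dia_apply, Pi.smul_apply, smul_eq_mul]
    ring
  · funext j
    simp [dia_apply]
  · refine hasDerivAt_pi.2 fun j => ?_
    have h1 : HasDerivAt (fun θ : ℝ => θ * w j) (w j) 0 := by
      simpa using (hasDerivAt_id (0 : ℝ)).mul_const (w j)
    have h2 := ((h1.ofReal_comp.const_mul I).cexp).mul_const (Y j)
    simp only [dia_apply, Pi.smul_apply, smul_eq_mul]
    simpa [mul_assoc] using h2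
  · refine ⟨fun j => (exp (I * (θ * w j : ℝ)))⁻¹ * Y j, ?_⟩
    funext j
    rw [dia_apply, mul_inv_cancel_left₀ (exp_ne_zero _)]

variable {K} {a : (Fin n → ℂ) →L[ℝ] (Fin n → ℂ)} {c : ℝ → Fin n → ℂ}

theorem growth2 (h : K.Kil a) (hM : IsOpen M) (hb : K.NonnegBisec)
    (hc : ∀ s, HasDerivAt c (a (c s)) s) {R : ℝ} (hm : ∀ s ∈ Ico 0 R, c s ∈ M) (hR : 0 < R) :
    ∃ L : ℝ, 0 ≤ L ∧ ∀ Y : ℝ → Fin n → ℂ, (∀ s, HasDerivAt Y (a (Y s)) s) →
      ∀ s ∈ Ico 0 R, K.g (c s) (Y s) (Y s) ≤ L * ‖Y 0‖ ^ 2 := by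
  have h0 := hm 0 ⟨le_rfl, hR⟩
  obtain ⟨C, hC, hB⟩ := K.exists_bound h0 (K.Γ (c 0) (a (c 0)) + a)
  refine ⟨Real.exp (2 * C * R) * ‖K.g (c 0)‖, by positivity, fun Y hY T hT => ?_⟩
  have hm' : ∀ s ∈ Icc 0 T, c s ∈ M := fun s hs => hm s ⟨hs.1, hs.2.trans_lt hT.2⟩
  have key := mono_of (f := fun s =>
    -(Real.exp (-(2 * C * s)) * K.g (c s) (Y s) (Y s))) hT.1 fun s hs => by
      have hs' := hm' s hs
      have h1 := line (K.dg hM hs') (hc s) (hY s) (hY s)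
      have h2 : HasDerivAt (fun r : ℝ => Real.exp (-(2 * C * r)))
          (Real.exp (-(2 * C * s)) * (-(2 * C * 1))) s :=
        (((hasDerivAt_id s).const_mul (2 * C)).neg).exp
      refine ⟨_, (h2.mul h1).neg, ?_⟩
      have h3 := bound h hM hb hc hs.1 (fun r hr => hm' r ⟨hr.1, hr.2.trans hs.2⟩) hB (Y s)
      rw [K.compat hM hs', K.symm _ hs' (Y s) (K.Γ _ _ _), K.symm _ hs' (Y s) (a (Y s))]
      simp only [map_add, _root_.add_apply] at h3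
      have h4 := mul_nonneg (Real.exp_pos (-(2 * C * s))).le (sub_nonneg.2 h3)
      linarith
  simp only [mul_zero, neg_zero, Real.exp_zero, one_mul, neg_le_neg_iff] at key
  have h5 : Real.exp (2 * C * T) ≤ Real.exp (2 * C * R) :=
    Real.exp_le_exp.2 (mul_le_mul_of_nonneg_left hT.2.le (by positivity))
  have h6 : Real.exp (2 * C * T) * Real.exp (-(2 * C * T)) = 1 := by
    rw [← Real.exp_add, add_neg_cancel, Real.exp_zero]
  have h7 : K.g (c 0) (Y 0) (Y 0) ≤ ‖K.g (c 0)‖ * ‖Y 0‖ ^ 2 := by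
    have := (K.g (c 0)).le_opNorm₂ (Y 0) (Y 0)
    rw [mul_assoc, ← sq] at this
    exact (le_abs_self _).trans this
  calc K.g (c T) (Y T) (Y T)
      = Real.exp (2 * C * T) * (Real.exp (-(2 * C * T)) * K.g (c T) (Y T) (Y T)) := by
        rw [← mul_assoc, h6, one_mul]
    _ ≤ Real.exp (2 * C * T) * K.g (c 0) (Y 0) (Y 0) :=
        mul_le_mul_of_nonneg_left key (Real.exp_pos _).le
    _ ≤ Real.exp (2 * C * R) * (‖K.g (c 0)‖ * ‖Y 0‖ ^ 2) :=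
        mul_le_mul h5 h7 (K.nonneg h0 _) (Real.exp_pos _).le
    _ = _ := by ring

theorem dist_le2 {R L : ℝ} (hc : ∀ s ∈ Ico 0 R, ContDiffAt ℝ 1 c s) (hm : ∀ s ∈ Ico 0 R, c s ∈ M)
    (hL : ∀ s ∈ Ico 0 R, K.g (c s) (deriv c s) (deriv c s) ≤ L) {s t : ℝ} (hs : s ∈ Ico 0 R)
    (ht : t ∈ Ico 0 R) : K.dist (c s) (c t) ≤ ENNReal.ofReal (|t - s| * √(16 * L)) := by
  set σ : ℝ → ℝ := fun τ => s + (1 - Real.cos (Real.pi * τ)) / 2 * (t - s) with hσ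
  have hmem : ∀ τ, σ τ ∈ Ico 0 R := fun τ => by
    have := (convex_Ico (0 : ℝ) R).add_smul_sub_mem hs ht
      (show (1 - Real.cos (Real.pi * τ)) / 2 ∈ Icc (0 : ℝ) 1 from
        ⟨by linarith [Real.cos_le_one (Real.pi * τ)], by linarith [Real.neg_one_le_cos (Real.pi * τ)]⟩)
    simpa using this
  have h1 : ∀ τ : ℝ, HasDerivAt σ (Real.sin (Real.pi * τ) * Real.pi / 2 * (t - s)) τ := fun τ => by
    have := ((((((hasDerivAt_id τ).const_mul Real.pi).cos).const_sub 1).div_const 2).mul_const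
      (t - s)).const_add s
    exact HasDerivAt.congr_deriv this (by simp)
  have hd : ∀ τ : ℝ, deriv (fun τ : ℝ => c (σ τ)) τ =
      (Real.sin (Real.pi * τ) * Real.pi / 2 * (t - s)) • deriv c (σ τ) := fun τ =>
    (((hc _ (hmem τ)).differentiableAt one_ne_zero).hasDerivAt.scomp τ (h1 τ)).deriv
  have e0 : c s = (fun τ : ℝ => c (σ τ)) 0 := by simp [hσ]
  have e1 : c t = (fun τ : ℝ => c (σ τ)) 1 := by simp [hσ]
  have e2 : ContDiff ℝ 1 (fun τ : ℝ => c (σ τ)) := contDiff_iff_contDiffAt.2 fun τ =>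
    (hc _ (hmem τ)).comp τ (f := σ) (by rw [hσ]; fun_prop)
  rw [e0, e1]
  refine (dist_le_len e2 fun τ _ => hm _ (hmem τ)).trans ?_
  refine (setLIntegral_mono' measurableSet_Icc
    (g := fun _ => ENNReal.ofReal (|t - s| * √(16 * L)))
    fun τ _ => ENNReal.ofReal_le_ofReal ?_).trans (by simp)
  rw [hd, ← Real.sqrt_sq_eq_abs, ← Real.sqrt_mul (sq_nonneg _)]
  refine Real.sqrt_le_sqrt ?_
  simp only [map_smul, _root_.smul_apply, smul_eq_mul]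
  have h2 := hL _ (hmem τ)
  have h3 := K.nonneg (hm _ (hmem τ)) (deriv c (σ τ))
  have h4 : (Real.sin (Real.pi * τ) * Real.pi / 2) ^ 2 ≤ 16 := by
    have h5 := Real.sin_sq_le_one (Real.pi * τ)
    have h6 : Real.pi ^ 2 ≤ 16 := by nlinarith [Real.pi_le_four, Real.pi_pos]
    nlinarith [sq_nonneg Real.pi]
  calc _ = (t - s) ^ 2 * ((Real.sin (Real.pi * τ) * Real.pi / 2) ^ 2 *
        K.g (c (σ τ)) (deriv c (σ τ)) (deriv c (σ τ))) := by ring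
    _ ≤ _ := mul_le_mul_of_nonneg_left (mul_le_mul h4 h2 h3 (by norm_num)) (sq_nonneg _)

theorem end_lim (hK : K.Complete) {R L : ℝ} (hc : ∀ s ∈ Ico 0 R, ContDiffAt ℝ 1 c s) (hR : 0 < R)
    (hm : ∀ s ∈ Ico 0 R, c s ∈ M) (hL : ∀ s ∈ Ico 0 R, K.g (c s) (deriv c s) (deriv c s) ≤ L) :
    ∃ (u : ℕ → ℝ) (q : Fin n → ℂ), (∀ k, u k ∈ Ico 0 R) ∧ Tendsto u atTop (𝓝 R) ∧ q ∈ M ∧
      Tendsto (fun k => c (u k)) atTop (𝓝 q) := by
  obtain ⟨u, -, hu, hl⟩ := exists_seq_strictMono_tendsto' hR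
  have hu' : ∀ k, u k ∈ Ico 0 R := fun k => ⟨(hu k).1.le, (hu k).2⟩
  obtain ⟨p, hp, h⟩ := hK (fun k => c (u k)) (fun k => hm _ (hu' k)) fun ε hε => by
    have h1 : Tendsto (fun x : ℝ => ENNReal.ofReal (x * √(16 * L))) (𝓝 0) (𝓝 0) := by
      have : Tendsto (fun x : ℝ => x * √(16 * L)) (𝓝 0) (𝓝 (0 * √(16 * L))) :=
        tendsto_id.mul_const _
      have h2 := ENNReal.tendsto_ofReal this
      rwa [zero_mul, ENNReal.ofReal_zero] at h2
    obtain ⟨δ, hδ, h2⟩ := Metric.eventually_nhds_iff.1 (h1.eventually (gt_mem_nhds hε))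
    obtain ⟨N, hN⟩ := Metric.cauchySeq_iff.1 hl.cauchySeq δ hδ
    refine ⟨N, fun k hk l hl' => (dist_le2 hc hm hL (hu' k) (hu' l)).trans_lt (h2 ?_)⟩
    have := hN l hl' k hk
    rw [Real.dist_eq] at this
    simpa using this
  exact ⟨u, p, hu', hl, hp, h⟩

end Vale.Agent.P253.KahlerMetric
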