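import Vale.Agent.P253.Alg

/-! Linear holomorphic Killing fields. -/

namespace Vale.Agent.P253.KahlerMetric

open scoped ContDiff ENNReal Topology
open Set Filter Complex

variable {n : ℕ} {M : Set (Fin n → ℂ)} (K : KahlerMetric M) {p : Fin n → ℂ}

/-- The infinitesimal form of the invariance under the flow of `i a`. -/
structure Kil (a : (Fin n → ℂ) →L[ℝ] (Fin n → ℂ)) : Prop where
  lin : ∀ X, a (I • X) = I • a X
  k1 : ∀ p ∈ M, ∀ Y Z, fderiv ℝ K.g p (I • a p) Y Z + K.g p (I • a Y) Z + K.g p Y (I • a Z) = 0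
  k2 : ∀ p ∈ M, ∀ Y Z, fderiv ℝ K.Γ p (I • a p) Y Z + K.Γ p (I • a Y) Z + K.Γ p Y (I • a Z) =
    I • a (K.Γ p Y Z)

theorem D_iso (hM : IsOpen M) (T : (Fin n → ℂ) →L[ℝ] (Fin n → ℂ)) (hT : ∀ p ∈ M, T p ∈ M)
    (hi : ∀ p ∈ M, ∀ Y Z, K.g (T p) (T Y) (T Z) = K.g p Y Z) (hp : p ∈ M) (X Y Z : Fin n → ℂ) :
    fderiv ℝ K.g (T p) (T X) (T Y) (T Z) = fderiv ℝ K.g p X Y Z := by
  have hc : HasDerivAt (fun s : ℝ => p + s • X) X 0 := by
    simpa using ((hasDerivAt_id (0 : ℝ)).smul_const X).const_add p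
  have hc' : HasDerivAt (fun s : ℝ => T (p + s • X)) (T X) 0 :=
    T.hasFDerivAt.comp_hasDerivAt 0 hc
  have hf : HasFDerivAt K.g (fderiv ℝ K.g p) ((fun s : ℝ => p + s • X) 0) := by
    simpa using K.dg hM hp
  have hf' : HasFDerivAt K.g (fderiv ℝ K.g (T p)) ((fun s : ℝ => T (p + s • X)) 0) := by
    simpa using K.dg hM (hT p hp)
  have h1 := line hf hc (hasDerivAt_const 0 Y) (hasDerivAt_const 0 Z)
  have h2 := line hf' hc' (hasDerivAt_const 0 (T Y)) (hasDerivAt_const 0 (T Z))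
  have h3 : ∀ᶠ s in 𝓝 (0 : ℝ), p + s • X ∈ M :=
    hc.continuousAt.eventually (hM.mem_nhds (by simpa using hp))
  have h4 := h2.unique (h1.congr_of_eventuallyEq (h3.mono fun s hs => hi _ hs Y Z))
  simpa using h4

theorem G_iso (hM : IsOpen M) (T : (Fin n → ℂ) →L[ℝ] (Fin n → ℂ)) (hs : Function.Surjective T)
    (hT : ∀ p ∈ M, T p ∈ M) (hi : ∀ p ∈ M, ∀ Y Z, K.g (T p) (T Y) (T Z) = K.g p Y Z) (hp : p ∈ M)
    (X Y : Fin n → ℂ) : K.Γ (T p) (T X) (T Y) = T (K.Γ p X Y) := by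
  refine K.ext_g (hT p hp) fun Z => ?_
  obtain ⟨Z, rfl⟩ := hs Z
  rw [hi p hp, K.koszul hM p hp, K.koszul hM _ (hT p hp), K.D_iso hM T hT hi hp, K.D_iso hM T hT hi hp,
    K.D_iso hM T hT hi hp]

theorem kil_of (hM : IsOpen M) (a : (Fin n → ℂ) →L[ℝ] (Fin n → ℂ))
    (lin : ∀ X, a (I • X) = I • a X) (T : ℝ → (Fin n → ℂ) →L[ℝ] (Fin n → ℂ))
    (h0 : ∀ Y, T 0 Y = Y) (hd : ∀ Y, HasDerivAt (fun θ => T θ Y) (I • a Y) 0)
    (hs : ∀ θ, Function.Surjective (T θ)) (hT : ∀ θ, ∀ p ∈ M, T θ p ∈ M)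
    (hi : ∀ θ, ∀ p ∈ M, ∀ Y Z, K.g (T θ p) (T θ Y) (T θ Z) = K.g p Y Z) : K.Kil a := by
  refine ⟨lin, fun p hp Y Z => ?_, fun p hp Y Z => ?_⟩
  · have hf : HasFDerivAt K.g (fderiv ℝ K.g p) ((fun θ => T θ p) 0) := by
      simpa only [h0] using K.dg hM hp
    have h1 := line hf (hd p) (hd Y) (hd Z)
    simp only [hi _ p hp, h0] at h1
    exact h1.unique (hasDerivAt_const _ _)
  · have hf : HasFDerivAt K.Γ (fderiv ℝ K.Γ p) ((fun θ => T θ p) 0) := by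
      simpa only [h0] using K.dG hM hp
    have h1 := line hf (hd p) (hd Y) (hd Z)
    simp only [fun θ => K.G_iso hM (T θ) (hs θ) (hT θ) (hi θ) hp, h0] at h1
    exact h1.unique (hd _)

variable {K} {a : (Fin n → ℂ) →L[ℝ] (Fin n → ℂ)}

theorem Kil.adj (h : K.Kil a) (hM : IsOpen M) (hp : p ∈ M) (Y Z : Fin n → ℂ) :
    K.g p (K.Γ p (a p) Y) Z + K.g p (a Y) Z = K.g p Y (K.Γ p (a p) Z) + K.g p Y (a Z) := by
  have e : ∀ W : Fin n → ℂ, I • I • W = -W := fun W => by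
    rw [smul_smul, I_mul_I, neg_smul, one_smul]
  have h1 := h.k1 p hp Y (I • Z)
  rw [K.compat hM hp, K.G_I' hM hp, K.G_I' hM hp, K.G_I hM hp, h.lin, e, e, K.hermitian p hp,
    K.hermitian p hp, map_neg, map_neg] at h1
  linarith

theorem Kil.curv (h : K.Kil a) (hM : IsOpen M) (hb : K.NonnegBisec) (hp : p ∈ M)
    (y : Fin n → ℂ) :
    K.g p (fderiv ℝ K.Γ p (a p) (a p) y) y - K.g p (a (K.Γ p (a p) y)) y +
      K.g p (K.Γ p (a p) (a y)) y + K.g p (K.Γ p (a (a p)) y) y ≤ 0 := by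
  have e : ∀ W : Fin n → ℂ, I • I • W = -W := fun W => by
    rw [smul_smul, I_mul_I, neg_smul, one_smul]
  have h1 := K.bisec_le hM hb hp y (a p)
  have h2 := h.k2 p hp y (a p)
  rw [K.G_I hM hp, K.G_I' hM hp] at h2
  have h3 : I • fderiv ℝ K.Γ p (I • a p) y (a p) =
      - a (K.Γ p (a p) y) + K.Γ p (a p) (a y) + K.Γ p (a (a p)) y := by
    have h4 := congrArg (fun W : Fin n → ℂ => I • W) h2
    simp only [smul_add, e] at h4
    rw [K.G_symm hM hp (a p) y, K.G_symm hM hp (a p) (a y), K.G_symm hM hp (a (a p)) y, ← h4]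
    abel
  rw [h3, K.DG_symm hM hp (a p) y] at h1
  simp only [map_add, map_neg, _root_.add_apply, _root_.neg_apply] at h1
  linarith

theorem inv_g (K : KahlerMetric M) (hp : p ∈ M) : (K.g p).IsInvertible := by
  have hi : Function.Injective (K.g p) := fun X Y hXY => K.ext_g hp fun Z => by rw [hXY]
  have hd : Module.finrank ℝ (Fin n → ℂ) = Module.finrank ℝ ((Fin n → ℂ) →L[ℝ] ℝ) := by
    rw [← (LinearMap.toContinuousLinearMap (𝕜 := ℝ) (E := Fin n → ℂ) (F' := ℝ)).finrank_eq]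
    exact Subspace.dual_finrank_eq.symm
  have hs : Function.Surjective (K.g p) :=
    (LinearMap.injective_iff_surjective_of_finrank_eq_finrank (f := (K.g p).toLinearMap) hd).1 hi
  exact ⟨(LinearEquiv.ofBijective (K.g p).toLinearMap ⟨hi, hs⟩).toContinuousLinearEquiv, rfl⟩

theorem exists_bound (K : KahlerMetric M) (hp : p ∈ M) (B : (Fin n → ℂ) →L[ℝ] (Fin n → ℂ)) :
    ∃ C : ℝ, 0 ≤ C ∧ ∀ u, K.g p (B u) u ≤ C * K.g p u u := by
  have hc : ContinuousOn (fun u => K.g p (B u) u / K.g p u u) (Metric.sphere 0 1) := by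
    refine ContinuousOn.div (by fun_prop) (by fun_prop) fun u hu => (K.pos p hp u ?_).ne'
    rintro rfl
    simp at hu
  obtain ⟨C, hC⟩ := (isCompact_sphere (0 : Fin n → ℂ) 1).bddAbove_image hc
  refine ⟨max C 0, le_max_right _ _, fun u => ?_⟩
  by_cases hu : u = 0
  · simp [hu]
  have hn : 0 < ‖u‖ := norm_pos_iff.2 hu
  have h1 : ‖u‖⁻¹ • u ∈ Metric.sphere (0 : Fin n → ℂ) 1 := by
    rw [mem_sphere_zero_iff_norm, norm_smul, norm_inv, norm_norm, inv_mul_cancel₀ hn.ne']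
  have h2 := hC ⟨_, h1, rfl⟩
  have h3 := K.pos p hp u hu
  simp only [map_smul, _root_.smul_apply, smul_eq_mul] at h2
  rw [mul_div_mul_left _ _ (inv_pos.2 hn).ne', mul_div_mul_left _ _ (inv_pos.2 hn).ne',
    div_le_iff₀ h3] at h2
  exact h2.trans (mul_le_mul_of_nonneg_right (le_max_left _ _) h3.le)

end Vale.Agent.P253.KahlerMetric
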