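import Vale.Agent.P253.KilL

/-! Local inverses, the real flow, and the Killing field of the pulled back metric. -/

namespace Vale.Agent.P253.KahlerMetric

open scoped ContDiff ENNReal Topology
open Set Filter Complex Metric Vale.Agent.P278

variable {n : ℕ} {M U : Set (Fin n → ℂ)} {F G : (Fin n → ℂ) → Fin n → ℂ} {z q : Fin n → ℂ}
  {w : Fin n → ℝ} {Φ : ℝ → (Fin n → ℂ) → Fin n → ℂ}

theorem loc_inv (hM : IsOpen M) (hF : DifferentiableOn ℂ F M) (hq : q ∈ M)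
    (hi : Function.Injective (fderiv ℝ F q)) : ∃ (ψ : (Fin n → ℂ) → Fin n → ℂ) (r : ℝ), 0 < r ∧
      DifferentiableOn ℂ ψ (ball (F q) r) ∧ MapsTo ψ (ball (F q) r) M ∧
      (∀ y ∈ ball (F q) r, F (ψ y) = y) ∧ ∀ᶠ x in 𝓝 q, ψ (F x) = x := by
  have hd := hF.differentiableAt (hM.mem_nhds hq)
  rw [hd.fderiv_restrictScalars ℝ] at hi
  have hi' : Function.Injective (fderiv ℂ F q).toLinearMap := hi
  let e : (Fin n → ℂ) ≃L[ℂ] (Fin n → ℂ) := (LinearEquiv.ofBijective (fderiv ℂ F q).toLinearMap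
    ⟨hi', LinearMap.injective_iff_surjective.1 hi'⟩).toContinuousLinearEquiv
  have hf' : HasFDerivAt F (e : (Fin n → ℂ) →L[ℂ] (Fin n → ℂ)) q := hd.hasFDerivAt
  have hf : ContDiffAt ℂ 1 F q :=
    ((osg_smooth hM hF).contDiffAt (hM.mem_nhds hq)).of_le (by simp)
  have h1 := hf.to_localInverse hf' one_ne_zero
  have hs := hf.hasStrictFDerivAt' hf' one_ne_zero
  have h2 : ∀ᶠ y in 𝓝 (F q), hf.localInverse hf' one_ne_zero y ∈ M :=
    h1.continuousAt.eventually (hM.mem_nhds (by rwa [hf.localInverse_apply_image]))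
  obtain ⟨r, hr, h3⟩ := Metric.eventually_nhds_iff_ball.1
    (((h1.eventually (by simp)).and h2).and hs.eventually_right_inverse)
  exact ⟨_, r, hr, fun y hy => ((h3 y hy).1.1.differentiableAt one_ne_zero).differentiableWithinAt,
    fun y hy => (h3 y hy).1.2, fun y hy => (h3 y hy).2, hs.eventually_left_inverse⟩

/-- An isometric holomorphic action with an equivariant holomorphic map `F`. -/
structure Act (K : KahlerMetric M) (Φ : ℝ → (Fin n → ℂ) → Fin n → ℂ)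
    (F : (Fin n → ℂ) → Fin n → ℂ) (w : Fin n → ℝ) : Prop where
  oM : IsOpen M
  hol : ∀ θ, DifferentiableOn ℂ (Φ θ) M
  maps : ∀ θ, MapsTo (Φ θ) M M
  cont : ContinuousOn (Function.uncurry Φ) (univ ×ˢ M)
  zero : ∀ z ∈ M, Φ 0 z = z
  iso : ∀ θ, ∀ z ∈ M, ∀ Y Z,
    K.g (Φ θ z) (fderiv ℝ (Φ θ) z Y) (fderiv ℝ (Φ θ) z Z) = K.g z Y Z
  hF : DifferentiableOn ℂ F M
  eqv : ∀ θ, ∀ z ∈ M, F (Φ θ z) = rot w θ (F z)

theorem rot_cont (w : Fin n → ℝ) : Continuous fun t : ℝ × (Fin n → ℂ) => rot w t.1 t.2 :=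
  continuous_pi fun j => by unfold rot; fun_prop

theorem rot_zero (w : Fin n → ℝ) (z : Fin n → ℂ) : rot w 0 z = z := by
  funext j
  simp [rot]

variable {K : KahlerMetric M}

theorem Act.kil (A : Act K Φ F w) (h : Sec M U F G) : (K.pull h).Kil (dia fun j => (w j : ℂ)) := by
  refine (K.pull h).kil_rotL h.oU w fun z hz => ?_
  obtain ⟨ψ, r, -, -, -, -, hψ⟩ := loc_inv h.oM h.hF (h.maps hz)
    (Function.LeftInverse.injective (h.GF hz))
  have hG : ContinuousAt G z := h.hG.continuousOn.continuousAt (h.oU.mem_nhds hz)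
  have t1 : Tendsto (fun t : ℝ × (Fin n → ℂ) => rot w t.1 t.2) (𝓝 (0, z)) (𝓝 z) := by
    have := (rot_cont w).tendsto (0, z)
    rwa [rot_zero] at this
  have t0 : Tendsto (fun t : ℝ × (Fin n → ℂ) => t.2) (𝓝 (0, z)) (𝓝 z) :=
    continuous_snd.tendsto (0, z)
  have t2 : Tendsto (fun t : ℝ × (Fin n → ℂ) => Φ t.1 (G t.2)) (𝓝 (0, z)) (𝓝 (G z)) := by
    have h1 : ContinuousAt (Function.uncurry Φ) (0, G z) :=
      A.cont.continuousAt ((isOpen_univ.prod h.oM).mem_nhds ⟨mem_univ _, h.maps hz⟩)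
    have h2 : Tendsto (fun t : ℝ × (Fin n → ℂ) => (t.1, G t.2)) (𝓝 (0, z)) (𝓝 (0, G z)) :=
      (continuous_fst.tendsto (0, z)).prodMk_nhds (hG.tendsto.comp t0)
    have h3 := h1.tendsto.comp h2
    rwa [Function.uncurry_apply_pair, A.zero _ (h.maps hz)] at h3
  have hE : ∀ᶠ t : ℝ × (Fin n → ℂ) in 𝓝 (0, z),
      t.2 ∈ U ∧ rot w t.1 t.2 ∈ U ∧ G (rot w t.1 t.2) = Φ t.1 (G t.2) := by
    filter_upwards [t0.eventually (h.oU.mem_nhds hz), t1.eventually (h.oU.mem_nhds hz),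
      (hG.tendsto.comp t1).eventually hψ, t2.eventually hψ] with t a1 a2 a3 a4
    refine ⟨a1, a2, ?_⟩
    simp only [Function.comp] at a3
    rw [← a3, ← a4, h.sec _ a2, A.eqv _ _ (h.maps a1), h.sec _ a1]
  filter_upwards [hE.curry_nhds] with θ hθ
  refine ⟨hθ.self_of_nhds.2.1, hθ.eventually_nhds.mono fun q hq Y Z => ?_⟩
  obtain ⟨a1, a2, a3⟩ := hq.self_of_nhds
  have d1 : HasFDerivAt (fun y => G (rot w θ y)) ((fderiv ℝ G (rot w θ q)).comp
      (dia fun j => exp (I * (θ * w j : ℝ)))) q :=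
    ((h.hG.differentiableAt (h.oU.mem_nhds a2)).restrictScalars ℝ).hasFDerivAt.comp q
      (dia fun j => exp (I * (θ * w j : ℝ))).hasFDerivAt
  have d2 := (((A.hol θ).differentiableAt (h.oM.mem_nhds (h.maps a1))).restrictScalars
    ℝ).hasFDerivAt.comp q ((h.hG.differentiableAt (h.oU.mem_nhds a1)).restrictScalars ℝ).hasFDerivAt
  have d3 := d1.unique (d2.congr_of_eventuallyEq (hq.mono fun y hy => hy.2.2))
  have d4 : ∀ Y, fderiv ℝ G (rot w θ q) (rot w θ Y) = fderiv ℝ (Φ θ) (G q) (fderiv ℝ G q Y) :=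
    fun Y => congrArg (fun L : (Fin n → ℂ) →L[ℝ] (Fin n → ℂ) => L Y) d3
  show K.pg G _ _ _ = K.pg G _ _ _
  rw [pg_apply, pg_apply, d4, d4]
  rw [a3, A.iso θ _ (h.maps a1)]

/-- The real flow. -/
noncomputable def fl (w : Fin n → ℝ) (s : ℝ) (z : Fin n → ℂ) : Fin n → ℂ :=
  fun j => ((Real.exp (s * w j) : ℝ) : ℂ) * z j

theorem fl_zero (z : Fin n → ℂ) : fl w 0 z = z := by
  funext j
  simp [fl]

theorem fl_add (s t : ℝ) (z : Fin n → ℂ) : fl w s (fl w t z) = fl w (s + t) z := by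
  funext j
  simp only [fl, add_mul, Real.exp_add]
  push_cast
  ring

theorem fl_cont (w : Fin n → ℝ) : Continuous fun t : ℝ × (Fin n → ℂ) => fl w t.1 t.2 :=
  continuous_pi fun j => by unfold fl; fun_prop

theorem fl_der (T : ℝ) (z : Fin n → ℂ) (s : ℝ) :
    HasDerivAt (fun s => fl w (s - T) z) ((dia fun j => (w j : ℂ)) (fl w (s - T) z)) s := by
  refine hasDerivAt_pi.2 fun j => ?_
  have h1 : HasDerivAt (fun s : ℝ => (s - T) * w j) (w j) s := by
    simpa using ((hasDerivAt_id s).sub_const T).mul_const (w j)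
  have h2 := (h1.exp.ofReal_comp).mul_const (z j)
  rw [dia_apply]
  refine h2.congr_deriv ?_
  simp only [fl]
  push_cast
  ring

theorem fl_cd (T : ℝ) (z : Fin n → ℂ) : ContDiff ℝ 1 fun s => fl w (s - T) z := by
  refine contDiff_pi.2 fun j => ContDiff.mul ?_ contDiff_const
  exact ofRealCLM.contDiff.comp (f := fun s : ℝ => Real.exp ((s - T) * w j)) (by fun_prop)

theorem fl_norm (hw : ∀ j, 0 < w j) {s : ℝ} (hs : s ≤ 0) (z : Fin n → ℂ) : ‖fl w s z‖ ≤ ‖z‖ := by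
  refine (pi_norm_le_iff_of_nonneg (norm_nonneg z)).2 fun j => ?_
  simp only [fl, norm_mul, norm_real, Real.norm_eq_abs, abs_of_pos (Real.exp_pos _)]
  exact (mul_le_of_le_one_left (norm_nonneg _)
    (Real.exp_le_one_iff.2 (mul_nonpos_of_nonpos_of_nonneg hs (hw j).le))).trans
      (norm_le_pi_norm z j)

theorem fl_lim (hw : ∀ j, 0 < w j) (z : Fin n → ℂ) :
    Tendsto (fun T : ℝ => fl w (-T) z) atTop (𝓝 0) := by
  refine tendsto_pi_nhds.2 fun j => ?_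
  have h1 : Tendsto (fun T : ℝ => Real.exp (-T * w j)) atTop (𝓝 0) :=
    Real.tendsto_exp_atBot.comp (tendsto_neg_atTop_atBot.atBot_mul_const (hw j))
  have h2 := ((continuous_ofReal.tendsto 0).comp h1).mul_const (z j)
  simpa [Function.comp_def, fl] using h2

theorem fl_ball (hw : ∀ j, 0 < w j) {c y : Fin n → ℂ} {r s t : ℝ} (hr : 0 < r) (hy : y ∈ ball c r)
    (ht : fl w (-t) y ∈ ball c r) (h0 : 0 ≤ s) (hs : s ≤ t) : fl w (-s) y ∈ ball c r := by
  rw [mem_ball, dist_pi_lt_iff hr] at hy ht ⊢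
  intro j
  have h1 := ((convex_ball (c j) r).linear_preimage
    (LinearMap.toSpanSingleton ℝ ℂ (y j))).ordConnected
  have h2 := h1.out (x := Real.exp (-t * w j)) (by simpa [fl] using ht j) (y := 1)
    (by simpa using hy j) (a := Real.exp (-s * w j))
    ⟨Real.exp_le_exp.2 (by nlinarith [hw j]), Real.exp_le_one_iff.2 (by nlinarith [hw j])⟩
  simpa [fl] using h2

theorem agree {U₁ U₂ : Set (Fin n → ℂ)} {G₁ G₂ : (Fin n → ℂ) → Fin n → ℂ} (o₁ : IsOpen U₁)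
    (o₂ : IsOpen U₂) (h₁ : DifferentiableOn ℂ G₁ U₁) (h₂ : DifferentiableOn ℂ G₂ U₂) {t : ℝ}
    (ht : 0 ≤ t) (hm : ∀ s ∈ Icc 0 t, fl w (-s) z ∈ U₁ ∧ fl w (-s) z ∈ U₂)
    (he : G₁ =ᶠ[𝓝 (fl w (-t) z)] G₂) : G₁ z = G₂ z := by
  have hP : IsPreconnected ((fun s => fl w (-s) z) '' Icc 0 t) :=
    isPreconnected_Icc.image _ ((fl_cont w).comp
      (continuous_neg.prodMk continuous_const)).continuousOn
  refine AnalyticOnNhd.eqOn_of_preconnected_of_eventuallyEq (𝕜 := ℂ)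
    ((osgood o₁ h₁).mono ?_) ((osgood o₂ h₂).mono ?_) hP ⟨t, right_mem_Icc.2 ht, rfl⟩ he
    ⟨0, left_mem_Icc.2 ht, by simp only [neg_zero, fl_zero]⟩
  · rintro _ ⟨s, hs, rfl⟩
    exact (hm s hs).1
  · rintro _ ⟨s, hs, rfl⟩
    exact (hm s hs).2

end Vale.Agent.P253.KahlerMetric
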