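import Vale.Agent.P253.MLim

/-! Continuation of the local inverse of `F` along the flow, with values in a manifold. -/

namespace Vale.Agent.P253.KahlerMetric

open scoped ContDiff ENNReal Topology Manifold
open Set Filter Complex Metric Vale.Agent.P278

variable {n : ℕ} {U : Set (Fin n → ℂ)} {z : Fin n → ℂ} {X : Type*} [TopologicalSpace X]
  [ChartedSpace (Fin n → ℂ) X] [IsManifold 𝓘(ℂ, Fin n → ℂ) ω X] [T2Space X] {K : KahlerMfd n X}
  {F : X → Fin n → ℂ} {G : (Fin n → ℂ) → X} {Φ : ℝ → X → X} {w : Fin n → ℝ} {p : X}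

theorem magree {U₁ U₂ : Set (Fin n → ℂ)} {G₁ G₂ : (Fin n → ℂ) → X} (h₁ : SecX U₁ F G₁)
    (h₂ : SecX U₂ F G₂) {t : ℝ} (ht : 0 ≤ t)
    (hm : ∀ s ∈ Icc 0 t, fl w (-s) z ∈ U₁ ∧ fl w (-s) z ∈ U₂)
    (he : G₁ =ᶠ[𝓝 (fl w (-t) z)] G₂) : G₁ z = G₂ z := by
  have hP : IsPreconnected ((fun s => fl w (-s) z) '' Icc 0 t) :=
    isPreconnected_Icc.image _ ((fl_cont w).comp
      (continuous_neg.prodMk continuous_const)).continuousOn
  refine (ident 𝓘(ℂ, Fin n → ℂ) (V := Fin n → ℂ) hP ?_ ?_ ⟨t, right_mem_Icc.2 ht, rfl⟩ he z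
    ⟨0, left_mem_Icc.2 ht, by simp only [neg_zero, fl_zero]⟩).self_of_nhds
  · rintro _ ⟨s, hs, rfl⟩
    exact (h₁.oU.eventually_mem (hm s hs).1).mono h₁.hG
  · rintro _ ⟨s, hs, rfl⟩
    exact (h₂.oU.eventually_mem (hm s hs).2).mono h₂.hG

/-- Sections over open sets that are star shaped for the flow. -/
structure MGood (F : X → Fin n → ℂ) (w : Fin n → ℝ) (ψ : (Fin n → ℂ) → X) (U : Set (Fin n → ℂ))
    (G : (Fin n → ℂ) → X) : Prop where
  sec : SecX U F G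
  zero : 0 ∈ U
  star : ∀ z ∈ U, ∀ s, 0 ≤ s → fl w (-s) z ∈ U
  germ : G =ᶠ[𝓝 0] ψ

variable {ψ : (Fin n → ℂ) → X}

theorem MGood.agree (hw : ∀ j, 0 < w j) {U' : Set (Fin n → ℂ)} {G' : (Fin n → ℂ) → X}
    (h : MGood F w ψ U G) (h' : MGood F w ψ U' G') (hz : z ∈ U) (hz' : z ∈ U') :
    G z = G' z := by
  obtain ⟨t, h1, h2⟩ := (((fl_lim hw z).eventually
    (h.germ.trans h'.germ.symm).eventuallyEq_nhds).and (eventually_ge_atTop 0)).exists
  exact magree h.sec h'.sec h2 (fun s hs => ⟨h.star z hz s hs.1, h'.star z hz' s hs.1⟩) h1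

theorem mexists_max (hw : ∀ j, 0 < w j) (h : MGood F w ψ U G) : ∃ Z H, MGood F w ψ Z H ∧
    ∀ U' G', MGood F w ψ U' G' → U' ⊆ Z := by
  classical
  let Z : Set (Fin n → ℂ) := {z | ∃ t : Set (Fin n → ℂ) × ((Fin n → ℂ) → X),
    MGood F w ψ t.1 t.2 ∧ z ∈ t.1}
  let H : (Fin n → ℂ) → X := fun z => if hz : z ∈ Z then hz.choose.2 z else G z
  have e : ∀ U' G', MGood F w ψ U' G' → ∀ z ∈ U', H z = G' z := fun U' G' hg z hz => by
    have h1 : z ∈ Z := ⟨(U', G'), hg, hz⟩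
    simp only [H, dif_pos h1]
    exact h1.choose_spec.1.agree hw hg h1.choose_spec.2 hz
  have e' : ∀ U' G', MGood F w ψ U' G' → ∀ z ∈ U', H =ᶠ[𝓝 z] G' := fun U' G' hg z hz =>
    (hg.sec.oU.eventually_mem hz).mono (e U' G' hg)
  refine ⟨Z, H, ⟨⟨?_, h.sec.hF, ?_, ?_⟩, ⟨(U, G), h, h.zero⟩, ?_, ?_⟩,
    fun U' G' hg z hz => ⟨(U', G'), hg, hz⟩⟩
  · exact isOpen_iff_forall_mem_open.2 fun z ⟨t, ht, hz⟩ =>
      ⟨t.1, fun y hy => ⟨t, ht, hy⟩, ht.sec.oU, hz⟩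
  · rintro z ⟨t, ht, hz⟩
    exact (ht.sec.hG z hz).congr_of_eventuallyEq (e' _ _ ht z hz)
  · rintro z ⟨t, ht, hz⟩
    rw [e _ _ ht z hz]
    exact ht.sec.sec z hz
  · rintro z ⟨t, ht, hz⟩ s hs
    exact ⟨t, ht, ht.star z hz s hs⟩
  · exact (e' U G h 0 h.zero).trans h.germ

theorem mextend (hw : ∀ j, 0 < w j) (h : MGood F w ψ U G) {χ : (Fin n → ℂ) → X}
    {c : Fin n → ℂ} {r t : ℝ} (hr : 0 < r) (hχ : SecX (ball c r) F χ) (ht : 0 ≤ t)
    (h1 : fl w (-t) c ∈ U) (h2 : fl w (-t) c ∈ ball c r) (h3 : G =ᶠ[𝓝 (fl w (-t) c)] χ) :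
    ∃ U' G', MGood F w ψ U' G' ∧ c ∈ U' := by
  classical
  obtain ⟨O, hO, oO, hcO⟩ := _root_.eventually_nhds_iff.1
    ((h3.and (h.sec.oU.eventually_mem h1)).and (isOpen_ball.eventually_mem h2))
  let N : Set (Fin n → ℂ) := ball c r ∩ ⋃ s ∈ Ici (0 : ℝ), fl w (-s) ⁻¹' O
  have oN : IsOpen N := isOpen_ball.inter (isOpen_biUnion fun s _ =>
    oO.preimage ((fl_cont w).comp (continuous_const.prodMk continuous_id)))
  have ag : ∀ y ∈ N, y ∈ U → G y = χ y := by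
    rintro y ⟨hy, hy'⟩ hU
    obtain ⟨s, hs0, hsO⟩ := mem_iUnion₂.1 hy'
    exact magree h.sec hχ hs0
      (fun a ha => ⟨h.star y hU a ha.1, fl_ball hw hr hy (hO _ hsO).2 ha.1 ha.2⟩)
      ((oO.eventually_mem hsO).mono fun x hx => (hO x hx).1.1)
  let H : (Fin n → ℂ) → X := fun y => if y ∈ U then G y else χ y
  have eU : ∀ y ∈ U, H y = G y := fun y hy => if_pos hy
  have eN : ∀ y ∈ N, H y = χ y := fun y hy => by
    by_cases hU : y ∈ U
    · rw [eU y hU, ag y hy hU]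
    · exact if_neg hU
  refine ⟨U ∪ N, H, ⟨⟨h.sec.oU.union oN, h.sec.hF, ?_, ?_⟩, Or.inl h.zero, ?_, ?_⟩,
    Or.inr ⟨mem_ball_self hr, mem_iUnion₂.2 ⟨t, ht, hcO⟩⟩⟩
  · rintro y (hy | hy)
    · exact (h.sec.hG y hy).congr_of_eventuallyEq ((h.sec.oU.eventually_mem hy).mono eU)
    · exact (hχ.hG y hy.1).congr_of_eventuallyEq ((oN.eventually_mem hy).mono eN)
  · rintro y (hy | hy)
    · rw [eU y hy]
      exact h.sec.sec y hy
    · rw [eN y hy]
      exact hχ.sec y hy.1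
  · rintro y (hy | ⟨hy, hy'⟩) a ha
    · exact Or.inl (h.star y hy a ha)
    · obtain ⟨s, hs0, hsO⟩ := mem_iUnion₂.1 hy'
      rcases le_total a s with has | has
      · refine Or.inr ⟨fl_ball hw hr hy (hO _ hsO).2 ha has,
          mem_iUnion₂.2 ⟨s - a, sub_nonneg.2 has, ?_⟩⟩
        rw [mem_preimage, fl_add, show -(s - a) + -a = -s by ring]
        exact hsO
      · have h4 := h.star _ (hO _ hsO).1.2 (a - s) (sub_nonneg.2 has)
        rw [fl_add, show -(a - s) + -s = -a by ring] at h4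
        exact Or.inl h4
  · exact EventuallyEq.trans ((h.sec.oU.eventually_mem h.zero).mono eU) h.germ

theorem mglobal (A : K.Circle Φ) (eqv : ∀ θ x, F (Φ θ x) = rot w θ (F x))
    (hb : K.NonnegBisec) (hK : K.Complete) (hw : ∀ j, 0 < w j)
    (h : MGood F w ψ U G) : ∃ H, MGood F w ψ univ H := by
  obtain ⟨Z, H, hZ, hmax⟩ := mexists_max hw h
  suffices e : Z = univ from ⟨H, e ▸ hZ⟩
  refine eq_univ_of_forall fun z => ?_
  by_contra hn
  obtain ⟨T, hT1, hT0⟩ := (((fl_lim hw z).eventually (hZ.sec.oU.mem_nhds hZ.zero)).and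
    (eventually_ge_atTop 0)).exists
  have hcont := (fl_cd (w := w) T z).continuous
  have hcl : IsClosed (Ici (0 : ℝ) ∩ (fun s => fl w (s - T) z) ⁻¹' Zᶜ) :=
    isClosed_Ici.inter (hZ.sec.oU.isClosed_compl.preimage hcont)
  have hb' : BddBelow (Ici (0 : ℝ) ∩ (fun s => fl w (s - T) z) ⁻¹' Zᶜ) := ⟨0, fun x hx => hx.1⟩
  have hR := hcl.csInf_mem ⟨T, hT0, by simp only [mem_preimage, sub_self, fl_zero]; exact hn⟩ hb'
  set R := sInf (Ici (0 : ℝ) ∩ (fun s => fl w (s - T) z) ⁻¹' Zᶜ) with hRd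
  have hpos : 0 < R := lt_of_le_of_ne hR.1 fun e => hR.2 (by
    rw [← e]
    simp only [zero_sub]
    exact hT1)
  have hm : ∀ s ∈ Ico 0 R, fl w (s - T) z ∈ Z := fun s hs => by
    by_contra hs'
    exact absurd (csInf_le hb' ⟨hs.1, hs'⟩) (not_le.2 hs.2)
  obtain ⟨u, q, hu, hl, hc, hFq, hi⟩ := mlimit A eqv hb hK hw hZ.sec hpos hm
  obtain ⟨χ, r, hr, c1, c4⟩ := mloc_inv h.sec.hF hi
  rw [hFq] at c1
  obtain ⟨k, k1, k2⟩ := ((hc.eventually c4.eventually_nhds).and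
    (((hcont.tendsto R).comp hl).eventually (isOpen_ball.mem_nhds (mem_ball_self hr)))).exists
  have e : fl w (-(R - u k)) (fl w (R - T) z) = fl w (u k - T) z := by
    rw [fl_add, show -(R - u k) + (R - T) = u k - T by ring]
  have hk := hm _ (hu k)
  obtain ⟨U', G', g1, g2⟩ := mextend hw hZ hr c1 (sub_nonneg.2 (hu k).2.le) (e ▸ hk)
    (e ▸ k2) (by
      rw [e]
      have h5 := (hZ.sec.hG _ hk).continuousAt.eventually k1
      filter_upwards [h5, hZ.sec.oU.mem_nhds hk] with y a1 a2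
      rw [← a1, hZ.sec.sec y a2])
  exact hR.2 (hmax U' G' g1 g2)

theorem minverse [PreconnectedSpace X] (A : K.Circle Φ) (eqv : ∀ θ x, F (Φ θ x) = rot w θ (F x))
    (hb : K.NonnegBisec) (hK : K.Complete) (hw : ∀ j, 0 < w j)
    (hF : MDifferentiable 𝓘(ℂ, Fin n → ℂ) 𝓘(ℂ, Fin n → ℂ) F) (h0 : F p = 0)
    (hi : Function.Injective (dch F p)) :
    ∃ H : (Fin n → ℂ) → X, MDifferentiable 𝓘(ℂ, Fin n → ℂ) 𝓘(ℂ, Fin n → ℂ) H ∧
      (∀ y, F (H y) = y) ∧ ∀ x, H (F x) = x := by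
  obtain ⟨χ, r, hr, c1, c4⟩ := mloc_inv hF hi
  rw [h0] at c1
  obtain ⟨H, hH⟩ := mglobal (ψ := χ) A eqv hb hK hw ⟨c1, mem_ball_self hr, fun z hz s hs => by
      rw [mem_ball_zero_iff] at hz ⊢
      exact (fl_norm hw (neg_nonpos.2 hs) z).trans_lt hz, EventuallyEq.rfl⟩
  have hd : MDifferentiable 𝓘(ℂ, Fin n → ℂ) 𝓘(ℂ, Fin n → ℂ) H := fun y => hH.sec.hG y (mem_univ y)
  refine ⟨H, hd, fun y => hH.sec.sec y (mem_univ y), ?_⟩
  refine congrFun (ident_univ 𝓘(ℂ, Fin n → ℂ) (V := Fin n → ℂ) (f := H ∘ F) (g := id) (x := p)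
    (hd.comp hF) mdifferentiable_id ?_)
  have h1 : Tendsto F (𝓝 p) (𝓝 0) := by
    rw [← h0]
    exact (hF p).continuousAt.tendsto
  filter_upwards [h1.eventually hH.germ, c4] with x a1 a2
  simp only [Function.comp, id]
  rw [a1, a2]

omit [T2Space X] in
theorem mexists_F (A : K.Circle Φ) (w : Fin n → ℕ) {f : X → Fin n → ℂ}
    (hf : MDifferentiable 𝓘(ℂ, Fin n → ℂ) 𝓘(ℂ, Fin n → ℂ) f) (fix : ∀ θ, Φ θ p = p)
    (hi : Function.Injective (dch f p))
    (der : ∀ θ Y, dch (f ∘ Φ θ) p Y = rot (fun j => (w j : ℝ)) θ (dch f p Y)) :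
    ∃ F : X → Fin n → ℂ, MDifferentiable 𝓘(ℂ, Fin n → ℂ) 𝓘(ℂ, Fin n → ℂ) F ∧
      (∀ θ x, F (Φ θ x) = rot (fun j => (w j : ℝ)) θ (F x)) ∧ F p = 0 ∧
        Function.Injective (dch F p) := by
  set H : ℝ → X → Fin n → ℂ :=
    fun θ x => rot (fun j => (w j : ℝ)) (-θ) (f (Φ θ x) - f p) with hH
  have hc0 : Continuous fun t : ℝ × X => (-t.1, f (Function.uncurry Φ t) - f p) :=
    continuous_fst.neg.prodMk ((hf.continuous.comp A.cont).sub continuous_const)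
  have hc1 : Continuous fun t : ℝ × X => H t.1 t.2 := (rot_cont fun j => (w j : ℝ)).comp hc0
  have hc : ∀ e : atlas (Fin n → ℂ) X, ContinuousOn
      (Function.uncurry fun θ y => H θ (e.1.symm y)) (univ ×ˢ e.1.target) := fun e => by
    have a1 : ContinuousOn (fun t : ℝ × (Fin n → ℂ) => (t.1, e.1.symm t.2))
        (univ ×ˢ e.1.target) := continuousOn_fst.prodMk
      (e.1.continuousOn_symm.comp continuousOn_snd fun t ht => ht.2)
    exact (hc1.comp_continuousOn a1).congr fun t _ => rfl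
  have hd0 : ∀ (e : atlas (Fin n → ℂ) X) θ,
      DifferentiableOn ℂ ((f ∘ Φ θ) ∘ e.1.symm) e.1.target := fun e θ =>
    d_from e (hf.comp (A.hol θ))
  have hd : ∀ (e : atlas (Fin n → ℂ) X) θ,
      DifferentiableOn ℂ (fun y => H θ (e.1.symm y)) e.1.target := fun e θ =>
    (rotL (fun j => (w j : ℝ)) (-θ)).differentiable.comp_differentiableOn
      ((hd0 e θ).sub_const (f p))
  refine ⟨fun x => ∫ θ in (0 : ℝ)..2 * Real.pi, H θ x, fun x => ?_, fun t x => ?_, ?_, ?_⟩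
  · have hx : x ∈ (ch n x).1.source := mem_chart_source _ _
    have a1 := (int_hol (ch n x).1.open_target (hc _) (hd _) ((ch n x).1.map_source hx) 0
      (2 * Real.pi)).differentiableAt
    refine ((mdifferentiableAt_iff_differentiableAt.2 a1).comp x
      (mdifferentiableAt_atlas (ch n x).2 hx)).congr_of_eventuallyEq ?_
    filter_upwards [(ch n x).1.open_source.mem_nhds hx] with y hy
    simp only [Function.comp]
    rw [(ch n x).1.left_inv hy]
  · simp only [hH, ← A.add _ t x]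
    exact avg_eqv w (f := fun θ => f (Φ θ x) - f p) ((hf.continuous.comp (A.cont.comp
      (f := fun θ : ℝ => (θ, x)) (by fun_prop))).sub continuous_const)
      (fun θ => by rw [A.per θ x]) t
  · simp only [hH, fix, sub_self, ← rotL_apply, map_zero, intervalIntegral.integral_zero]
  · have hp : p ∈ (ch n p).1.source := mem_chart_source _ _
    have hp' := (ch n p).1.map_source hp
    have o := (ch n p).1.open_target
    have d0 := (d_from (ch n p) hf).differentiableAt (o.mem_nhds hp')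
    have e0 : ∀ Y, dch f p Y = fderiv ℂ (f ∘ (ch n p).1.symm) ((ch n p).1 p) Y := fun Y => by
      unfold dch d1
      rw [d0.fderiv_restrictScalars ℝ]
      rfl
    have e : ∀ θ, fderiv ℂ (fun y => H θ ((ch n p).1.symm y)) ((ch n p).1 p) =
        fderiv ℂ (f ∘ (ch n p).1.symm) ((ch n p).1 p) := fun θ => by
      have d1' := (hd0 (ch n p) θ).differentiableAt (o.mem_nhds hp')
      have d2 : HasFDerivAt (fun y => H θ ((ch n p).1.symm y)) _ ((ch n p).1 p) :=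
        (rotL (fun j => (w j : ℝ)) (-θ)).hasFDerivAt.comp _ (d1'.hasFDerivAt.sub_const (f p))
      rw [d2.fderiv]
      refine ContinuousLinearMap.ext fun Y => ?_
      have d3 := der θ Y
      rw [e0] at d3
      unfold dch d1 at d3
      rw [d1'.fderiv_restrictScalars ℝ] at d3
      have d4 : fderiv ℂ ((f ∘ Φ θ) ∘ (ch n p).1.symm) ((ch n p).1 p) Y = _ := d3
      rw [ContinuousLinearMap.comp_apply, d4, rotL_apply, rot_add, neg_add_cancel, rot_zero]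
    have h1 := int_hol o (hc _) (hd _) hp' 0 (2 * Real.pi)
    simp only [e, intervalIntegral.integral_const, sub_zero] at h1
    have h2 := (h1.restrictScalars ℝ).fderiv
    intro Y Z hYZ
    apply hi
    rw [e0, e0]
    have h3 : ∀ Y, dch (fun x => ∫ θ in (0 : ℝ)..2 * Real.pi, H θ x) p Y =
        (2 * Real.pi) • fderiv ℂ (f ∘ (ch n p).1.symm) ((ch n p).1 p) Y := fun Y =>
      congrArg (fun L : (Fin n → ℂ) →L[ℝ] (Fin n → ℂ) => L Y) h2
    rw [h3, h3] at hYZ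
    exact smul_right_injective (Fin n → ℂ) (r := 2 * Real.pi) Real.two_pi_pos.ne' hYZ

end Vale.Agent.P253.KahlerMetric
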