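import Vale.Agent.P253.MCont
import Vale.Agent.P253.Defs4

/-! The manifold theorem. -/

namespace Vale.Agent.P253.KahlerMetric

open scoped ContDiff ENNReal Topology Manifold
open Set Filter Complex Metric Vale.Agent.P278

variable {n : ℕ} {X : Type*} [TopologicalSpace X] [ChartedSpace (Fin n → ℂ) X]
  [IsManifold 𝓘(ℂ, Fin n → ℂ) ω X] {K : KahlerMfd n X} {Φ : ℝ → X → X} {p : X}

theorem adapt (A : K.Circle Φ) {w : Fin n → ℕ} (fix : ∀ θ, Φ θ p = p) (hc : CoordAt n p)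
    (hw : Weights Φ p w) : ∃ f : X → Fin n → ℂ, HolTo f ∧ Function.Injective (dch f p) ∧
      ∀ θ Y, dch (f ∘ Φ θ) p Y = rot (fun j => (w j : ℝ)) θ (dch f p Y) := by
  obtain ⟨f, hf, hi⟩ := hc
  obtain ⟨L, hL⟩ := hw
  have hp : p ∈ (ch n p).1.source := mem_chart_source _ _
  have hp' := (ch n p).1.map_source hp
  have o := (ch n p).1.open_target
  have d0 := (d_from (ch n p) hf).differentiableAt (o.mem_nhds hp')
  have e0 : ∀ Y, dch f p Y = fderiv ℂ (f ∘ (ch n p).1.symm) ((ch n p).1 p) Y := fun Y => by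
    unfold dch d1
    rw [d0.fderiv_restrictScalars ℝ]
    rfl
  have hi' : Function.Injective (fderiv ℂ (f ∘ (ch n p).1.symm) ((ch n p).1 p)).toLinearMap := by
    intro Y Z h
    apply hi
    rw [e0, e0]
    exact h
  let B : (Fin n → ℂ) ≃ₗ[ℂ] (Fin n → ℂ) :=
    LinearEquiv.ofBijective _ ⟨hi', LinearMap.injective_iff_surjective.1 hi'⟩
  let T : (Fin n → ℂ) →L[ℂ] (Fin n → ℂ) := (B.symm.trans L).toContinuousLinearEquiv
  have hT : HolTo (T ∘ f) := fun x =>
    (mdifferentiableAt_iff_differentiableAt.2 T.differentiableAt).comp x (hf x)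
  have e1 : ∀ Y, dch (T ∘ f) p Y = L Y := fun Y => by
    have h1 := chain (k := (T ∘ f) ∘ (ch n p).1.symm) T.differentiableAt d0 EventuallyEq.rfl Y
    have h2 : fderiv ℝ T ((f ∘ (ch n p).1.symm) ((ch n p).1 p)) = T.restrictScalars ℝ :=
      (T.restrictScalars ℝ).fderiv
    rw [h2] at h1
    refine h1.trans ?_
    have h3 : fderiv ℝ (f ∘ (ch n p).1.symm) ((ch n p).1 p) Y = B Y := e0 Y
    rw [h3]
    show L (B.symm (B Y)) = L Y
    rw [B.symm_apply_apply]
  refine ⟨T ∘ f, hT, fun Y Z h => L.injective (by rwa [e1, e1] at h), fun θ Y => ?_⟩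
  rw [e1, ← hL, ← e1]
  have e2 : (((ch n p).1 ∘ Φ θ) ∘ (ch n p).1.symm) ((ch n p).1 p) = (ch n p).1 p := by
    simp only [Function.comp]
    rw [(ch n p).1.left_inv hp, fix]
  have m1 := (A.hol θ _).comp _ (d_symm (ch n p) hp')
  have m2 : (Φ θ ∘ (ch n p).1.symm) ((ch n p).1 p) ∈ (ch n p).1.source := by
    simp only [Function.comp]
    rwa [(ch n p).1.left_inv hp, fix]
  have h4 := chain (k := ((T ∘ f) ∘ Φ θ) ∘ (ch n p).1.symm) (f := (T ∘ f) ∘ (ch n p).1.symm)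
    (g := ((ch n p).1 ∘ Φ θ) ∘ (ch n p).1.symm) (z := (ch n p).1 p)
    (by rw [e2]; exact (d_from (ch n p) hT).differentiableAt (o.mem_nhds hp'))
    (d_to (ch n p) m1 m2)
    ((m1.continuousAt.eventually ((ch n p).1.open_source.mem_nhds m2)).mono fun y hy => by
      simp only [Function.comp] at hy ⊢
      rw [(ch n p).1.left_inv hy]) Y
  rw [e2] at h4
  exact h4

theorem isCn [T2Space X] [PreconnectedSpace X] (A : K.Circle Φ) (hb : K.NonnegBisec)
    (hK : K.Complete) {w : Fin n → ℕ} (hpos : ∀ j, 0 < w j) (fix : ∀ θ, Φ θ p = p)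
    (hc : CoordAt n p) (hw : Weights Φ p w) : IsCn n X := by
  obtain ⟨f, h1, h2, h3⟩ := adapt A fix hc hw
  obtain ⟨F, g1, g2, g3, g4⟩ := mexists_F A w h1 fix h2 h3
  obtain ⟨H, k1, k2, k3⟩ := minverse A g2 hb hK (fun j => Nat.cast_pos.2 (hpos j)) g1 g3 g4
  exact ⟨F, H, g1, k1, k3, k2⟩

end Vale.Agent.P253.KahlerMetric
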