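import Vale.Agent.P253.Glue

/-! Limits of lifted flow lines in a complete Kähler manifold. -/

namespace Vale.Agent.P253.KahlerMetric

open scoped ContDiff ENNReal Topology Manifold
open Set Filter Complex Metric Vale.Agent.P278 MeasureTheory

variable {n : ℕ} {U : Set (Fin n → ℂ)} {z : Fin n → ℂ} {X : Type*} [TopologicalSpace X]
  [ChartedSpace (Fin n → ℂ) X] {K : KahlerMfd n X} {c : ℝ → X}

theorem mdist_le {R L : ℝ} (hc : ∀ s ∈ Ico 0 R, ContinuousAt c s ∧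
      ContDiffAt ℝ 1 ((ch n (c s)).1 ∘ c) s) (hL : ∀ s ∈ Ico 0 R, K.sp c s ≤ L) {s t : ℝ}
    (hs : s ∈ Ico 0 R) (ht : t ∈ Ico 0 R) :
    K.dist (c s) (c t) ≤ ENNReal.ofReal (|t - s| * √(16 * L)) := by
  set σ : ℝ → ℝ := fun τ => s + (1 - Real.cos (Real.pi * τ)) / 2 * (t - s) with hσ
  have hmem : ∀ τ, σ τ ∈ Ico 0 R := fun τ => by
    have := (convex_Ico (0 : ℝ) R).add_smul_sub_mem hs ht
      (show (1 - Real.cos (Real.pi * τ)) / 2 ∈ Icc (0 : ℝ) 1 from
        ⟨by linarith [Real.cos_le_one (Real.pi * τ)], by linarith [Real.neg_one_le_cos (Real.pi * τ)]⟩)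
    simpa using this
  have h1 : ∀ τ : ℝ, HasDerivAt σ (Real.sin (Real.pi * τ) * Real.pi / 2 * (t - s)) τ := fun τ => by
    have := ((((((hasDerivAt_id τ).const_mul Real.pi).cos).const_sub 1).div_const 2).mul_const
      (t - s)).const_add s
    exact HasDerivAt.congr_deriv this (by simp)
  have hd : ∀ τ : ℝ, deriv ((ch n (c (σ τ))).1 ∘ fun τ : ℝ => c (σ τ)) τ =
      (Real.sin (Real.pi * τ) * Real.pi / 2 * (t - s)) • deriv ((ch n (c (σ τ))).1 ∘ c) (σ τ) :=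
    fun τ => (((hc _ (hmem τ)).2.differentiableAt one_ne_zero).hasDerivAt.scomp τ (h1 τ)).deriv
  have e0 : (fun τ : ℝ => c (σ τ)) 0 = c s := by simp [hσ]
  have e1 : (fun τ : ℝ => c (σ τ)) 1 = c t := by simp [hσ]
  have e2 : C1 n (fun τ : ℝ => c (σ τ)) :=
    ⟨continuous_iff_continuousAt.2 fun τ => (hc _ (hmem τ)).1.comp (h1 τ).continuousAt,
      fun τ => (hc _ (hmem τ)).2.comp τ (f := σ) (by rw [hσ]; fun_prop)⟩
  have e3 : K.dist (c s) (c t) ≤
      ∫⁻ τ in Icc (0 : ℝ) 1, ENNReal.ofReal √(K.sp (fun τ : ℝ => c (σ τ)) τ) := by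
    unfold KahlerMfd.dist
    exact iInf_le_of_le _ (iInf_le_of_le e2 (iInf_le_of_le e0 (iInf_le_of_le e1 le_rfl)))
  refine e3.trans ((setLIntegral_mono' measurableSet_Icc
    (g := fun _ => ENNReal.ofReal (|t - s| * √(16 * L)))
    fun τ _ => ENNReal.ofReal_le_ofReal ?_).trans (by simp))
  have h2 := hL _ (hmem τ)
  unfold KahlerMfd.sp ev at h2 ⊢
  rw [hd, ← Real.sqrt_sq_eq_abs, ← Real.sqrt_mul (sq_nonneg _)]
  refine Real.sqrt_le_sqrt ?_
  simp only [map_smul, _root_.smul_apply, smul_eq_mul]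
  have h3 := (K.K (ch n (c (σ τ)))).nonneg ((ch n (c (σ τ))).1.map_source (mem_chart_source _ _))
    (deriv ((ch n (c (σ τ))).1 ∘ c) (σ τ))
  have h4 : (Real.sin (Real.pi * τ) * Real.pi / 2) ^ 2 ≤ 16 := by
    have h5 := Real.sin_sq_le_one (Real.pi * τ)
    have h6 : Real.pi ^ 2 ≤ 16 := by nlinarith [Real.pi_le_four, Real.pi_pos]
    nlinarith [sq_nonneg Real.pi]
  have h7 := mul_le_mul_of_nonneg_left (mul_le_mul h4 h2 h3 (by norm_num)) (sq_nonneg (t - s))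
  linarith

theorem mend (hK : K.Complete) {R L : ℝ} (hc : ∀ s ∈ Ico 0 R, ContinuousAt c s ∧
      ContDiffAt ℝ 1 ((ch n (c s)).1 ∘ c) s) (hR : 0 < R) (hL : ∀ s ∈ Ico 0 R, K.sp c s ≤ L) :
    ∃ (u : ℕ → ℝ) (q : X), (∀ k, u k ∈ Ico 0 R) ∧ Tendsto u atTop (𝓝 R) ∧
      Tendsto (fun k => c (u k)) atTop (𝓝 q) := by
  obtain ⟨u, -, hu, hl⟩ := exists_seq_strictMono_tendsto' hR
  have hu' : ∀ k, u k ∈ Ico 0 R := fun k => ⟨(hu k).1.le, (hu k).2⟩
  obtain ⟨p, h⟩ := hK (fun k => c (u k)) fun ε hε => by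
    have h1 : Tendsto (fun x : ℝ => ENNReal.ofReal (x * √(16 * L))) (𝓝 0) (𝓝 0) := by
      have : Tendsto (fun x : ℝ => x * √(16 * L)) (𝓝 0) (𝓝 (0 * √(16 * L))) :=
        tendsto_id.mul_const _
      have h2 := ENNReal.tendsto_ofReal this
      rwa [zero_mul, ENNReal.ofReal_zero] at h2
    obtain ⟨δ, hδ, h2⟩ := Metric.eventually_nhds_iff.1 (h1.eventually (gt_mem_nhds hε))
    obtain ⟨N, hN⟩ := Metric.cauchySeq_iff.1 hl.cauchySeq δ hδ
    refine ⟨N, fun k hk l hl' => (mdist_le hc hL (hu' k) (hu' l)).trans_lt (h2 ?_)⟩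
    have := hN l hl' k hk
    rw [Real.dist_eq] at this
    simpa using this
  exact ⟨u, p, hu', hl, h⟩

variable [IsManifold 𝓘(ℂ, Fin n → ℂ) ω X] {F : X → Fin n → ℂ} {G : (Fin n → ℂ) → X}
  {Φ : ℝ → X → X} {w : Fin n → ℝ}

theorem mloc_inv (hF : MDifferentiable 𝓘(ℂ, Fin n → ℂ) 𝓘(ℂ, Fin n → ℂ) F) {q : X}
    (hi : Function.Injective (dch F q)) : ∃ (χ : (Fin n → ℂ) → X) (r : ℝ), 0 < r ∧
      SecX (ball (F q) r) F χ ∧ ∀ᶠ x in 𝓝 q, χ (F x) = x := by
  have hq : q ∈ (ch n q).1.source := mem_chart_source _ _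
  obtain ⟨ψ, r, hr, c1, c2, c3, c4⟩ := loc_inv (ch n q).1.open_target (d_from (ch n q) hF)
    ((ch n q).1.map_source hq) hi
  simp only [Function.comp, (ch n q).1.left_inv hq] at c1 c2 c3
  refine ⟨(ch n q).1.symm ∘ ψ, r, hr, ⟨isOpen_ball, hF, fun y hy => (d_symm _ (c2 hy)).comp y
    (mdifferentiableAt_iff_differentiableAt.2 (c1.differentiableAt (isOpen_ball.mem_nhds hy))),
    c3⟩, ?_⟩
  filter_upwards [(ch n q).1.open_source.mem_nhds hq, ((ch n q).1.continuousAt hq).eventually c4]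
    with x a1 a2
  simp only [Function.comp] at a2 ⊢
  rw [(ch n q).1.left_inv a1] at a2
  rw [a2, (ch n q).1.left_inv a1]

theorem mlimit (A : K.Circle Φ) (eqv : ∀ θ x, F (Φ θ x) = rot w θ (F x)) (hb : K.NonnegBisec)
    (hK : K.Complete) (hw : ∀ j, 0 < w j) (h : SecX U F G) {T R : ℝ} (hR : 0 < R)
    (hm : ∀ s ∈ Ico 0 R, fl w (s - T) z ∈ U) :
    ∃ (u : ℕ → ℝ) (q : X), (∀ k, u k ∈ Ico 0 R) ∧ Tendsto u atTop (𝓝 R) ∧
      Tendsto (fun k => G (fl w (u k - T) z)) atTop (𝓝 q) ∧ F q = fl w (R - T) z ∧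
        Function.Injective (dch F q) := by
  obtain ⟨KU, b1, b2, b3⟩ := h.glob A eqv hb
  obtain ⟨L, hL0, hL⟩ := growth2 b2 h.oU b1 (fl_der T z) hm hR
  have hL1 : ∀ s ∈ Ico 0 R, ∀ v, KU.g (fl w (s - T) z) v v ≤ L * ‖v‖ ^ 2 := by
    intro s hs v
    have h1 := hL _ (fl_der s v) s hs
    simp only [sub_self, fl_zero, zero_sub] at h1
    exact h1.trans (mul_le_mul_of_nonneg_left (pow_le_pow_left₀ (norm_nonneg _)
      (fl_norm hw (neg_nonpos.2 hs.1) v) 2) hL0)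
  have hL2 := hL (fun s => (dia fun j => (w j : ℂ)) (fl w (s - T) z)) fun s =>
    (dia fun j => (w j : ℂ)).hasFDerivAt.comp_hasDerivAt s (fl_der T z s)
  have mem : ∀ s ∈ Ico 0 R, fl w (s - T) z ∈ U ∩ G ⁻¹' (ch n (G (fl w (s - T) z))).1.source :=
    fun s hs => ⟨hm s hs, mem_chart_source _ _⟩
  have cd : ∀ s ∈ Ico 0 R, ContDiffAt ℝ 1
      (((ch n (G (fl w (s - T) z))).1 ∘ G) ∘ fun s => fl w (s - T) z) s := fun s hs =>
    ContDiffAt.comp (f := fun s => fl w (s - T) z) s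
      (((hol_sm (h.loc _).oU (h.loc _).hG).contDiffAt ((h.loc _).oU.mem_nhds (mem s hs))).of_le
        (by simp)) (fl_cd T z).contDiffAt
  obtain ⟨u, q, hu, hl, hc⟩ := mend (c := fun s => G (fl w (s - T) z)) hK
    (fun s hs => ⟨ContinuousAt.comp (f := fun s => fl w (s - T) z) (h.hG _ (hm s hs)).continuousAt
      (fl_cd T z).continuous.continuousAt, cd s hs⟩) hR fun s hs => by
      have h0 := HasFDerivAt.comp_hasDerivAt (f := fun s => fl w (s - T) z) s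
        ((d_to _ (h.hG _ (hm s hs)) (mem s hs).2).restrictScalars ℝ).hasFDerivAt (fl_der T z s)
      have h1 : HasDerivAt ((ch n (G (fl w (s - T) z))).1 ∘ fun s => G (fl w (s - T) z)) _ s := h0
      have h2 := hL2 s hs
      rw [b3 _ (hm s hs) _ (mem s hs).2] at h2
      unfold KahlerMfd.sp
      rw [h1.deriv]
      exact h2
  have hq : q ∈ (ch n q).1.source := mem_chart_source _ _
  have hq' := (ch n q).1.map_source hq
  refine ⟨u, q, hu, hl, hc, ?_, (injective_iff_map_eq_zero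
    (fderiv ℝ (F ∘ (ch n q).1.symm) ((ch n q).1 q))).2 fun v hv => ?_⟩
  · have h1 := (h.hF q).continuousAt.tendsto.comp hc
    have h2 := ((fl_cd (w := w) T z).continuous.tendsto R).comp hl
    exact tendsto_nhds_unique h1 (h2.congr fun k => (h.sec _ (hm _ (hu k))).symm)
  · have hl := h.loc (ch n q)
    have c1 : ContinuousAt (fun x => (K.K (ch n q)).g x v v) ((ch n q).1 q) :=
      ((((K.K (ch n q)).dg hl.oM hq').continuousAt).clm_apply continuousAt_const).clm_apply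
        continuousAt_const
    have c2 : ContinuousAt (fun x => L * ‖fderiv ℝ (F ∘ (ch n q).1.symm) x v‖ ^ 2)
        ((ch n q).1 q) :=
      continuousAt_const.mul ((((hol_sm1 hl.oM hl.hF).continuousOn.continuousAt
        (hl.oM.mem_nhds hq')).clm_apply continuousAt_const).norm.pow 2)
    have hc' := ((ch n q).1.continuousAt hq).tendsto.comp hc
    have h3 := le_of_tendsto_of_tendsto (c1.tendsto.comp hc') (c2.tendsto.comp hc')
      ((hc.eventually ((ch n q).1.open_source.mem_nhds hq)).mono fun k hk => by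
        have h4 := hL1 _ (hu k)
          (fderiv ℝ (F ∘ (ch n q).1.symm) (((ch n q).1 ∘ G) (fl w (u k - T) z)) v)
        rw [b3 _ (hm _ (hu k)) _ hk, pg_apply, hl.GF ⟨hm _ (hu k), hk⟩] at h4
        exact h4)
    rw [hv, norm_zero] at h3
    by_contra hne
    have := (K.K (ch n q)).pos _ hq' v hne
    simp only [ne_eq, OfNat.ofNat_ne_zero, not_false_eq_true, zero_pow, mul_zero] at h3
    linarith

end Vale.Agent.P253.KahlerMetric
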