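import Vale.Agent.P253.Flow

/-! Flow lines stay in the domain. -/

namespace Vale.Agent.P253.KahlerMetric

open scoped ContDiff ENNReal Topology
open Set Filter Complex MeasureTheory

variable {n : ℕ} {M : Set (Fin n → ℂ)} {K : KahlerMetric M} {a : (Fin n → ℂ) →L[ℝ] (Fin n → ℂ)}
  {c : ℝ → Fin n → ℂ}

theorem dist_le_len {γ : ℝ → Fin n → ℂ} (h1 : ContDiff ℝ 1 γ) (h2 : MapsTo γ (Icc 0 1) M) :
    K.dist (γ 0) (γ 1) ≤
      ∫⁻ t in Icc (0 : ℝ) 1, ENNReal.ofReal √(K.g (γ t) (deriv γ t) (deriv γ t)) := by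
  unfold KahlerMetric.dist
  exact iInf_le_of_le γ (iInf_le_of_le h1 (iInf_le_of_le h2 (iInf_le_of_le rfl
    (iInf_le_of_le rfl le_rfl))))

theorem dist_le (hc : ContDiff ℝ 1 c) {R L : ℝ} (hm : ∀ s ∈ Ico 0 R, c s ∈ M)
    (hL : ∀ s ∈ Ico 0 R, K.g (c s) (deriv c s) (deriv c s) ≤ L) {s t : ℝ} (hs : s ∈ Ico 0 R)
    (ht : t ∈ Ico 0 R) : K.dist (c s) (c t) ≤ ENNReal.ofReal (|t - s| * √L) := by
  have hmem : ∀ τ ∈ Icc (0 : ℝ) 1, s + τ * (t - s) ∈ Ico 0 R := fun τ hτ => by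
    have := (convex_Ico (0 : ℝ) R).add_smul_sub_mem hs ht hτ
    simpa using this
  have hd : ∀ τ : ℝ, deriv (fun τ : ℝ => c (s + τ * (t - s))) τ =
      (t - s) • deriv c (s + τ * (t - s)) := fun τ => by
    have h1 : HasDerivAt (fun τ : ℝ => s + τ * (t - s)) (t - s) τ := by
      simpa using ((hasDerivAt_id τ).mul_const (t - s)).const_add s
    exact ((hc.differentiable one_ne_zero _).hasDerivAt.scomp τ h1).deriv
  have e0 : c s = (fun τ : ℝ => c (s + τ * (t - s))) 0 := by simp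
  have e1 : c t = (fun τ : ℝ => c (s + τ * (t - s))) 1 := by simp
  have e2 : ContDiff ℝ 1 (fun τ : ℝ => c (s + τ * (t - s))) :=
    hc.comp (f := fun τ : ℝ => s + τ * (t - s)) (by fun_prop)
  rw [e0, e1]
  refine (dist_le_len e2 fun τ hτ => hm _ (hmem τ hτ)).trans ?_
  refine (setLIntegral_mono' measurableSet_Icc (g := fun _ => ENNReal.ofReal (|t - s| * √L))
    fun τ hτ => ENNReal.ofReal_le_ofReal ?_).trans (by simp)
  rw [hd, ← Real.sqrt_sq_eq_abs, ← Real.sqrt_mul (sq_nonneg _)]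
  refine Real.sqrt_le_sqrt ?_
  simp only [map_smul, _root_.smul_apply, smul_eq_mul]
  rw [← mul_assoc, ← sq]
  exact mul_le_mul_of_nonneg_left (hL _ (hmem τ hτ)) (sq_nonneg _)

theorem end_mem (hK : K.Complete) (hc : ContDiff ℝ 1 c) {R L : ℝ} (hR : 0 < R)
    (hm : ∀ s ∈ Ico 0 R, c s ∈ M)
    (hL : ∀ s ∈ Ico 0 R, K.g (c s) (deriv c s) (deriv c s) ≤ L) : c R ∈ M := by
  obtain ⟨u, -, hu, hl⟩ := exists_seq_strictMono_tendsto' hR
  have hu' : ∀ k, u k ∈ Ico 0 R := fun k => ⟨(hu k).1.le, (hu k).2⟩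
  obtain ⟨p, hp, h⟩ := hK (fun k => c (u k)) (fun k => hm _ (hu' k)) fun ε hε => by
    have h1 : Tendsto (fun x : ℝ => ENNReal.ofReal (x * √L)) (𝓝 0) (𝓝 0) := by
      have : Tendsto (fun x : ℝ => x * √L) (𝓝 0) (𝓝 (0 * √L)) := tendsto_id.mul_const _
      simpa using ENNReal.tendsto_ofReal this
    obtain ⟨δ, hδ, h2⟩ := Metric.eventually_nhds_iff.1 (h1.eventually (gt_mem_nhds hε))
    obtain ⟨N, hN⟩ := Metric.cauchySeq_iff.1 hl.cauchySeq δ hδ
    refine ⟨N, fun k hk l hl' => (dist_le hc hm hL (hu' k) (hu' l)).trans_lt (h2 ?_)⟩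
    have := hN l hl' k hk
    rw [Real.dist_eq] at this
    simpa using this
  rw [tendsto_nhds_unique ((hc.continuous.tendsto R).comp hl) h]
  exact hp

theorem stay (h : K.Kil a) (hM : IsOpen M) (hb : K.NonnegBisec) (hK : K.Complete)
    (hc1 : ContDiff ℝ 1 c) (hc : ∀ s, HasDerivAt c (a (c s)) s) (h0 : c 0 ∈ M) {T : ℝ}
    (hT : 0 ≤ T) : c T ∈ M := by
  by_contra hn
  have hcl : IsClosed (Ici (0 : ℝ) ∩ c ⁻¹' Mᶜ) :=
    isClosed_Ici.inter (hM.isClosed_compl.preimage hc1.continuous)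
  have hb' : BddBelow (Ici (0 : ℝ) ∩ c ⁻¹' Mᶜ) := ⟨0, fun x hx => hx.1⟩
  have hR := hcl.csInf_mem ⟨T, hT, hn⟩ hb'
  set R := sInf (Ici (0 : ℝ) ∩ c ⁻¹' Mᶜ) with hRd
  have hpos : 0 < R := lt_of_le_of_ne hR.1 fun e => hR.2 (e ▸ h0)
  have hm : ∀ s ∈ Ico 0 R, c s ∈ M := fun s hs => by
    by_contra hs'
    exact absurd (csInf_le hb' ⟨hs.1, hs'⟩) (not_le.2 hs.2)
  obtain ⟨L, -, hL⟩ := growth h hM hb hc hm hpos
  exact hR.2 (end_mem hK hc1 hpos hm fun s hs => by rw [(hc s).deriv]; exact hL s hs)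

/-- A diagonal real linear map. -/
noncomputable def dia (d : Fin n → ℂ) : (Fin n → ℂ) →L[ℝ] (Fin n → ℂ) :=
  (ContinuousLinearMap.pi fun j =>
    d j • ContinuousLinearMap.proj (R := ℂ) (φ := fun _ : Fin n => ℂ) j).restrictScalars ℝ

theorem dia_apply (d z : Fin n → ℂ) (j : Fin n) : dia d z j = d j * z j := rfl

theorem kil_rot (hM : IsOpen M) (w : Fin n → ℝ) (hT : ∀ θ, ∀ p ∈ M, rot w θ p ∈ M)
    (hi : ∀ θ, ∀ p ∈ M, ∀ Y Z, K.g (rot w θ p) (rot w θ Y) (rot w θ Z) = K.g p Y Z) :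
    K.Kil (dia fun j => (w j : ℂ)) := by
  refine K.kil_of hM _ (fun X => ?_) (fun θ => dia fun j => exp (I * (θ * w j : ℝ)))
    (fun Y => ?_) (fun Y => ?_) (fun θ Y => ?_) hT hi
  · funext j
    simp only [dia_apply, Pi.smul_apply, smul_eq_mul]
    ring
  · funext j
    simp [dia_apply]
  · refine hasDerivAt_pi.2 fun j => ?_
    have h1 : HasDerivAt (fun θ : ℝ => θ * w j) (w j) 0 := by
      simpa using (hasDerivAt_id (0 : ℝ)).mul_const (w j)
    have h2 := ((h1.ofReal_comp.const_mul I).cexp).mul_const (Y j)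
    simp only [dia_apply, Pi.smul_apply, smul_eq_mul]
    simpa [mul_assoc] using h2
  · refine ⟨fun j => (exp (I * (θ * w j : ℝ)))⁻¹ * Y j, ?_⟩
    funext j
    rw [dia_apply, mul_inv_cancel_left₀ (exp_ne_zero _)]

theorem eq_univ (hM : IsOpen M) (h0 : (0 : Fin n → ℂ) ∈ M) (hb : K.NonnegBisec)
    (hK : K.Complete) (w : Fin n → ℝ) (hw : ∀ j, 0 < w j) (hT : ∀ θ, ∀ p ∈ M, rot w θ p ∈ M)
    (hi : ∀ θ, ∀ p ∈ M, ∀ Y Z, K.g (rot w θ p) (rot w θ Y) (rot w θ Z) = K.g p Y Z) :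
    M = univ := by
  refine eq_univ_of_forall fun z => ?_
  have hlim : Tendsto (fun T : ℝ => fun j => ((Real.exp (-T * w j) : ℝ) : ℂ) * z j) atTop
      (𝓝 0) := by
    refine tendsto_pi_nhds.2 fun j => ?_
    have h1 : Tendsto (fun T : ℝ => Real.exp (-T * w j)) atTop (𝓝 0) :=
      Real.tendsto_exp_atBot.comp (tendsto_neg_atTop_atBot.atBot_mul_const (hw j))
    have h2 := ((continuous_ofReal.tendsto 0).comp h1).mul_const (z j)
    simpa [Function.comp_def] using h2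
  obtain ⟨T, hT1, hT0⟩ := ((hlim.eventually (hM.mem_nhds h0)).and (eventually_ge_atTop 0)).exists
  have key := stay (c := fun s j => ((Real.exp ((s - T) * w j) : ℝ) : ℂ) * z j)
    (kil_rot hM w hT hi) hM hb hK ?_ (fun s => ?_) (by simp only [zero_sub]; exact hT1) hT0
  · simpa using key
  · refine contDiff_pi.2 fun j => ContDiff.mul ?_ contDiff_const
    exact ofRealCLM.contDiff.comp (f := fun s : ℝ => Real.exp ((s - T) * w j)) (by fun_prop)
  · refine hasDerivAt_pi.2 fun j => ?_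
    have h1 : HasDerivAt (fun s : ℝ => (s - T) * w j) (w j) s := by
      simpa using ((hasDerivAt_id s).sub_const T).mul_const (w j)
    have h2 := (h1.exp.ofReal_comp).mul_const (z j)
    rw [dia_apply]
    refine h2.congr_deriv ?_
    push_cast
    ring

end Vale.Agent.P253.KahlerMetric
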