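import Vale.Agent.P253.Main
import Vale.Agent.P278.Osg2

/-! Pull back of a Kähler metric by a holomorphic section `G` of a holomorphic map `F`. -/

namespace Vale.Agent.P253.KahlerMetric

open scoped ContDiff ENNReal Topology
open Set Filter Complex Vale.Agent.P278

variable {n : ℕ} {M U : Set (Fin n → ℂ)} {F G H : (Fin n → ℂ) → Fin n → ℂ} {z : Fin n → ℂ}

theorem hol_I (h : DifferentiableAt ℂ H z) (W : Fin n → ℂ) :
    fderiv ℝ H z (I • W) = I • fderiv ℝ H z W := by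
  rw [h.fderiv_restrictScalars ℝ]
  exact (fderiv ℂ H z).map_smul I W

theorem hol_d (hU : IsOpen U) (h : DifferentiableOn ℂ H U) (u : Fin n → ℂ) :
    DifferentiableOn ℂ (fun y => fderiv ℝ H y u) U := by
  refine ((osg_fderiv hU h).clm_apply (differentiableOn_const u)).congr fun y hy => ?_
  rw [(h.differentiableAt (hU.mem_nhds hy)).fderiv_restrictScalars ℝ]
  rfl

theorem hol_sm (hU : IsOpen U) (h : DifferentiableOn ℂ H U) : ContDiffOn ℝ ∞ H U :=
  (osg_smooth hU h).restrict_scalars ℝ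

theorem hol_sm1 (hU : IsOpen U) (h : DifferentiableOn ℂ H U) : ContDiffOn ℝ ∞ (fderiv ℝ H) U :=
  (hol_sm hU h).fderiv_of_isOpen hU (by simp)

theorem hol_sm2 (hU : IsOpen U) (h : DifferentiableOn ℂ H U) :
    ContDiffOn ℝ ∞ (fderiv ℝ (fderiv ℝ H)) U :=
  (hol_sm1 hU h).fderiv_of_isOpen hU (by simp)

theorem d2_eq (hU : IsOpen U) (h : DifferentiableOn ℂ H U) (hz : z ∈ U) (u v : Fin n → ℂ) :
    fderiv ℝ (fderiv ℝ H) z u v = fderiv ℝ (fun y => fderiv ℝ H y v) z u := by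
  have h1 := ((hol_sm1 hU h).contDiffAt (hU.mem_nhds hz)).differentiableAt (by simp)
  rw [fderiv_clm_apply h1 (differentiableAt_const v)]
  simp

theorem hol_d2 (hU : IsOpen U) (h : DifferentiableOn ℂ H U) (u v : Fin n → ℂ) :
    DifferentiableOn ℂ (fun y => fderiv ℝ (fderiv ℝ H) y u v) U :=
  (hol_d hU (hol_d hU h v) u).congr fun _ hy => d2_eq hU h hy u v

theorem d2_symm (hU : IsOpen U) (h : DifferentiableOn ℂ H U) (hz : z ∈ U) (u v : Fin n → ℂ) :
    fderiv ℝ (fderiv ℝ H) z u v = fderiv ℝ (fderiv ℝ H) z v u :=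
  (((hol_sm hU h).contDiffAt (hU.mem_nhds hz)).isSymmSndFDerivAt
    (by simp only [minSmoothness_of_isRCLikeNormedField]; exact WithTop.coe_le_coe.2 le_top)).eq u v

theorem d2_I (hU : IsOpen U) (h : DifferentiableOn ℂ H U) (hz : z ∈ U) (u v : Fin n → ℂ) :
    fderiv ℝ (fderiv ℝ H) z (I • u) v = I • fderiv ℝ (fderiv ℝ H) z u v := by
  rw [d2_eq hU h hz, d2_eq hU h hz, hol_I ((hol_d hU h v).differentiableAt (hU.mem_nhds hz))]

theorem ln (z X : Fin n → ℂ) : HasDerivAt (fun s : ℝ => z + s • X) X 0 := by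
  simpa using ((hasDerivAt_id (0 : ℝ)).smul_const X).const_add z

theorem ln_comp (hU : IsOpen U) (h : DifferentiableOn ℂ H U) (hz : z ∈ U) (X : Fin n → ℂ) :
    HasDerivAt (fun s : ℝ => H (z + s • X)) (fderiv ℝ H z X) 0 := by
  have h1 : HasFDerivAt H (fderiv ℝ H z) ((fun s : ℝ => z + s • X) 0) := by
    simpa using ((h.differentiableAt (hU.mem_nhds hz)).restrictScalars ℝ).hasFDerivAt
  exact h1.comp_hasDerivAt 0 (ln z X)

/-- `G` is a holomorphic section of `F` over `U`. -/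
structure Sec (M U : Set (Fin n → ℂ)) (F G : (Fin n → ℂ) → Fin n → ℂ) : Prop where
  oM : IsOpen M
  oU : IsOpen U
  hF : DifferentiableOn ℂ F M
  hG : DifferentiableOn ℂ G U
  maps : MapsTo G U M
  sec : ∀ z ∈ U, F (G z) = z

theorem Sec.FG (h : Sec M U F G) (hz : z ∈ U) (v : Fin n → ℂ) :
    fderiv ℝ F (G z) (fderiv ℝ G z v) = v := by
  have h1 := ((h.hF.differentiableAt (h.oM.mem_nhds (h.maps hz))).restrictScalars ℝ).hasFDerivAt
  have h2 := ((h.hG.differentiableAt (h.oU.mem_nhds hz)).restrictScalars ℝ).hasFDerivAt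
  have h3 : HasFDerivAt (F ∘ G) (ContinuousLinearMap.id ℝ _) z :=
    (hasFDerivAt_id z).congr_of_eventuallyEq ((h.oU.eventually_mem hz).mono h.sec)
  exact congrArg (fun L : (Fin n → ℂ) →L[ℝ] (Fin n → ℂ) => L v) ((h1.comp z h2).unique h3)

theorem Sec.GF (h : Sec M U F G) (hz : z ∈ U) (v : Fin n → ℂ) :
    fderiv ℝ G z (fderiv ℝ F (G z) v) = v := by
  have hi : Function.Injective (fderiv ℝ G z) := Function.LeftInverse.injective (h.FG hz)
  obtain ⟨u, rfl⟩ := (LinearMap.injective_iff_surjective (f := (fderiv ℝ G z).toLinearMap)).1 hi v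
  exact congrArg _ (h.FG hz u)

variable (K : KahlerMetric M)

/-- The pulled back metric. -/
noncomputable def pg (G : (Fin n → ℂ) → Fin n → ℂ) (z : Fin n → ℂ) :
    (Fin n → ℂ) →L[ℝ] (Fin n → ℂ) →L[ℝ] ℝ :=
  (K.g (G z)).bilinearComp (fderiv ℝ G z) (fderiv ℝ G z)

/-- The pulled back connection. -/
noncomputable def pG (F G : (Fin n → ℂ) → Fin n → ℂ) (z : Fin n → ℂ) :
    (Fin n → ℂ) →L[ℝ] (Fin n → ℂ) →L[ℝ] (Fin n → ℂ) :=
  (ContinuousLinearMap.compL ℝ (Fin n → ℂ) (Fin n → ℂ) (Fin n → ℂ) (fderiv ℝ F (G z))).comp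
    ((K.Γ (G z)).bilinearComp (fderiv ℝ G z) (fderiv ℝ G z) + fderiv ℝ (fderiv ℝ G) z)

theorem pg_apply (z X Y : Fin n → ℂ) :
    K.pg G z X Y = K.g (G z) (fderiv ℝ G z X) (fderiv ℝ G z Y) := rfl

theorem pG_apply (z X Y : Fin n → ℂ) : K.pG F G z X Y = fderiv ℝ F (G z)
    (K.Γ (G z) (fderiv ℝ G z X) (fderiv ℝ G z Y) + fderiv ℝ (fderiv ℝ G) z X Y) := rfl

theorem pg_sm (h : Sec M U F G) : ContDiffOn ℝ ∞ (K.pg G) U := by
  refine contDiffOn_clm_apply.2 fun X => contDiffOn_clm_apply.2 fun Y => ?_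
  have h1 : ContDiffOn ℝ ∞ (fun z => K.g (G z)) U :=
    ContDiffOn.comp K.smooth (hol_sm h.oU h.hG) h.maps
  have h2 := hol_sm1 h.oU h.hG
  exact (h1.clm_apply (h2.clm_apply contDiffOn_const)).clm_apply (h2.clm_apply contDiffOn_const)

theorem pG_sm (h : Sec M U F G) : ContDiffOn ℝ ∞ (K.pG F G) U := by
  refine contDiffOn_clm_apply.2 fun X => contDiffOn_clm_apply.2 fun Y => ?_
  have h0 : ContDiffOn ℝ ∞ (fun z => fderiv ℝ F (G z)) U :=
    ContDiffOn.comp (hol_sm1 h.oM h.hF) (hol_sm h.oU h.hG) h.maps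
  have h1 : ContDiffOn ℝ ∞ (fun z => K.Γ (G z)) U :=
    ContDiffOn.comp K.smoothΓ (hol_sm h.oU h.hG) h.maps
  have h2 := hol_sm1 h.oU h.hG
  have h3 := hol_sm2 h.oU h.hG
  exact h0.clm_apply (((h1.clm_apply (h2.clm_apply contDiffOn_const)).clm_apply
    (h2.clm_apply contDiffOn_const)).add
      ((h3.clm_apply contDiffOn_const).clm_apply contDiffOn_const))

theorem ln_d1 (h : Sec M U F G) (hz : z ∈ U) (X Y : Fin n → ℂ) :
    HasDerivAt (fun s : ℝ => fderiv ℝ G (z + s • X) Y) (fderiv ℝ (fderiv ℝ G) z X Y) 0 := by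
  rw [d2_eq h.oU h.hG hz]
  exact ln_comp h.oU (hol_d h.oU h.hG Y) hz X

theorem dd_pg (h : Sec M U F G) (hz : z ∈ U) (X Y Z : Fin n → ℂ) :
    dd (K.pg G) z X Y Z =
      fderiv ℝ K.g (G z) (fderiv ℝ G z X) (fderiv ℝ G z Y) (fderiv ℝ G z Z) +
        K.g (G z) (fderiv ℝ (fderiv ℝ G) z X Y) (fderiv ℝ G z Z) +
        K.g (G z) (fderiv ℝ G z Y) (fderiv ℝ (fderiv ℝ G) z X Z) := by
  have hd := (((K.pg_sm h).contDiffAt (h.oU.mem_nhds hz)).differentiableAt (by simp)).hasFDerivAt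
  rw [dd_eq hd]
  have hd' : HasFDerivAt (K.pg G) (fderiv ℝ (K.pg G) z) ((fun s : ℝ => z + s • X) 0) := by
    simpa using hd
  have h1 := line hd' (ln z X) (hasDerivAt_const 0 Y) (hasDerivAt_const 0 Z)
  have hg : HasFDerivAt K.g (fderiv ℝ K.g (G z)) ((fun s : ℝ => G (z + s • X)) 0) := by
    simpa using K.dg h.oM (h.maps hz)
  have h2 := line hg (ln_comp h.oU h.hG hz X) (ln_d1 h hz X Y) (ln_d1 h hz X Z)
  simpa using h1.unique h2

/-- The pulled back Kähler metric. -/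
noncomputable def pull (h : Sec M U F G) : KahlerMetric U where
  g := K.pg G
  Γ := K.pG F G
  smooth := K.pg_sm h
  smoothΓ := K.pG_sm h
  symm' := fun _ hz _ _ => K.symm _ (h.maps hz) _ _
  pos' := fun z hz X hX => K.pos _ (h.maps hz) _ fun h0 => hX (by
    have h1 : fderiv ℝ G z X = 0 := h0
    rw [← h.FG hz X, h1, map_zero])
  hermitian' := fun z hz X Y => by
    have hd := h.hG.differentiableAt (h.oU.mem_nhds hz)
    simp only [ev, pg_apply]
    rw [hol_I hd, hol_I hd, K.hermitian _ (h.maps hz)]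
  closed' := fun z hz X Y Z => by
    have hd := h.hG.differentiableAt (h.oU.mem_nhds hz)
    have hm := h.maps hz
    have e : ∀ u v, fderiv ℝ (fderiv ℝ G) z u (I • v) = I • fderiv ℝ (fderiv ℝ G) z u v :=
      fun u v => by rw [d2_symm h.oU h.hG hz, d2_I h.oU h.hG hz, d2_symm h.oU h.hG hz]
    have sk : ∀ A B, K.g (G z) (I • A) B + K.g (G z) (I • B) A = 0 := fun A B => by
      rw [K.skew hm A B, K.symm _ hm A, neg_add_cancel]
    rw [K.dd_pg h hz, K.dd_pg h hz, K.dd_pg h hz, e, e, e, hol_I hd, hol_I hd, hol_I hd,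
      d2_symm h.oU h.hG hz Y X, d2_symm h.oU h.hG hz Z Y, d2_symm h.oU h.hG hz Z X]
    have h1 := K.closed h.oM _ hm (fderiv ℝ G z X) (fderiv ℝ G z Y) (fderiv ℝ G z Z)
    have h2 := sk (fderiv ℝ (fderiv ℝ G) z X Y) (fderiv ℝ G z Z)
    have h3 := sk (fderiv ℝ (fderiv ℝ G) z Y Z) (fderiv ℝ G z X)
    have h4 := sk (fderiv ℝ (fderiv ℝ G) z X Z) (fderiv ℝ G z Y)
    linarith
  koszul' := fun z hz X Y Z => by
    have hm := h.maps hz
    rw [K.dd_pg h hz, K.dd_pg h hz, K.dd_pg h hz, d2_symm h.oU h.hG hz Y X,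
      d2_symm h.oU h.hG hz Z Y, d2_symm h.oU h.hG hz Z X]
    simp only [ev]
    rw [pg_apply, pG_apply, h.GF hz, map_add, _root_.add_apply, K.koszul h.oM _ hm,
      K.symm _ hm (fderiv ℝ (fderiv ℝ G) z X Z)]
    ring

theorem dG_pull (h : Sec M U F G) (hz : z ∈ U) (W u v : Fin n → ℂ) :
    fderiv ℝ (fderiv ℝ G) z W (K.pG F G z u v) + fderiv ℝ G z (fderiv ℝ (K.pG F G) z W u v) =
      fderiv ℝ K.Γ (G z) (fderiv ℝ G z W) (fderiv ℝ G z u) (fderiv ℝ G z v) +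
        K.Γ (G z) (fderiv ℝ (fderiv ℝ G) z W u) (fderiv ℝ G z v) +
        K.Γ (G z) (fderiv ℝ G z u) (fderiv ℝ (fderiv ℝ G) z W v) +
        fderiv ℝ (fun y => fderiv ℝ (fderiv ℝ G) y u v) z W := by
  have hd : HasFDerivAt (K.pG F G) (fderiv ℝ (K.pG F G) z) ((fun s : ℝ => z + s • W) 0) := by
    simp only [zero_smul, add_zero]
    exact (K.pull h).dG h.oU hz
  have h1 := line hd (ln z W) (hasDerivAt_const 0 u) (hasDerivAt_const 0 v)
  have hd2 : HasFDerivAt (fderiv ℝ G) (fderiv ℝ (fderiv ℝ G) z) ((fun s : ℝ => z + s • W) 0) := by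
    simpa using (((hol_sm1 h.oU h.hG).contDiffAt (h.oU.mem_nhds hz)).differentiableAt
      (by simp)).hasFDerivAt
  have h2 := (HasFDerivAt.comp_hasDerivAt (E := (Fin n → ℂ) →L[ℝ] (Fin n → ℂ)) 0 hd2
    (ln z W)).clm_apply h1
  have hg : HasFDerivAt K.Γ (fderiv ℝ K.Γ (G z)) ((fun s : ℝ => G (z + s • W)) 0) := by
    simpa using K.dG h.oM (h.maps hz)
  have h3 := (line hg (ln_comp h.oU h.hG hz W) (ln_d1 h hz W u) (ln_d1 h hz W v)).add
    (ln_comp h.oU (hol_d2 h.oU h.hG u v) hz W)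
  have h4 : ∀ᶠ s in 𝓝 (0 : ℝ), z + s • W ∈ U :=
    (ln z W).continuousAt.eventually (h.oU.mem_nhds (by simpa using hz))
  have h5 := h2.unique (h3.congr_of_eventuallyEq (h4.mono fun s hs => by
    simp only [Function.comp, Pi.add_apply]
    rw [pG_apply, h.GF hs]))
  simpa using h5

theorem pull_bisec (h : Sec M U F G) (hb : K.NonnegBisec) : (K.pull h).NonnegBisec := by
  intro z hz u v _ _
  rw [(K.pull h).bisec_eq h.oU hz, neg_nonneg]
  have hd := h.hG.differentiableAt (h.oU.mem_nhds hz)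
  have hm := h.maps hz
  have e : ∀ W : Fin n → ℂ, I • I • W = -W := fun W => by
    rw [smul_smul, I_mul_I, neg_smul, one_smul]
  have h1 := K.dG_pull h hz v u v
  have h2 := congrArg (fun W : Fin n → ℂ => I • W) (K.dG_pull h hz (I • v) u v)
  simp only [d2_I h.oU h.hG hz, hol_I hd, K.G_I h.oM hm, K.G_I' h.oM hm, smul_add, e,
    hol_I ((hol_d2 h.oU h.hG u v).differentiableAt (h.oU.mem_nhds hz))] at h2
  have h3 : fderiv ℝ G z (fderiv ℝ (K.pG F G) z v u v + I • fderiv ℝ (K.pG F G) z (I • v) u v) =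
      fderiv ℝ K.Γ (G z) (fderiv ℝ G z v) (fderiv ℝ G z u) (fderiv ℝ G z v) +
        I • fderiv ℝ K.Γ (G z) (I • fderiv ℝ G z v) (fderiv ℝ G z u) (fderiv ℝ G z v) := by
    rw [map_add, hol_I hd]
    linear_combination (exp := 1) h1 + h2
  have h4 := K.bisec_le h.oM hb hm (fderiv ℝ G z u) (fderiv ℝ G z v)
  rw [← h3] at h4
  exact h4

end Vale.Agent.P253.KahlerMetric
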